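import Vale.Agent.P088.R2.H558.E3

/-!
# P088, calculus of test functions on pairs of points: integration by parts in the frames
-/

open MeasureTheory Set Filter
open scoped ContDiff Matrix Topology

noncomputable section

namespace Vale.Agent.P088.HY.N2

open Vale.Agent.P088.LR

variable {n : ℕ}

/-! ### Test functions -/

lemma _root_.Vale.Agent.P088.HY.TF.nsu {f : VV n → ℝ} (hf : TF (Un n) f) : SU f := hf.1.contDiffOn

/-- A function smooth on `Un` vanishing off a compact subset of `Un` is a test function. -/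
lemma tf_of {K : Set (VV n)} (hK : IsCompact K) (hKU : K ⊆ Un n) {h : VV n → ℝ} (hs : SU h)
    (h0 : ∀ z, z ∉ K → h z = 0) : TF (Un n) h := by
  have hsup : Function.support h ⊆ K := fun z hz => by
    by_contra hn
    exact hz (h0 z hn)
  have hts : tsupport h ⊆ K := closure_minimal hsup hK.isClosed
  refine ⟨?_, HasCompactSupport.of_support_subset_isCompact hK hsup, hts.trans hKU⟩
  rw [contDiff_iff_contDiffAt]
  intro z
  by_cases hz : z ∈ K
  · exact hs.contDiffAt (isOpen_Un.mem_nhds (hKU hz))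
  · have h1 : h =ᶠ[𝓝 z] fun _ => 0 := by
      filter_upwards [hK.isClosed.isOpen_compl.mem_nhds hz] with w hw using h0 w hw
    exact contDiffAt_const.congr_of_eventuallyEq h1

/-- Everything built from a test function. -/
lemma _root_.Vale.Agent.P088.HY.TF.nof {c : VV n → ℝ} (hc : TF (Un n) c) {h : VV n → ℝ} (hs : SU h)
    (h0 : ∀ z, z ∉ tsupport c → h z = 0) : TF (Un n) h := tf_of hc.2.1 hc.2.2 hs h0

lemma _root_.Vale.Agent.P088.HY.TF.ncongr {f g : VV n → ℝ} (hf : TF (Un n) f) (h : ∀ z, f z = g z) : TF (Un n) g := by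
  have : f = g := funext h
  rwa [← this]

lemma _root_.Vale.Agent.P088.HY.TF.nzero {c : VV n → ℝ} {z : VV n} (hz : z ∉ tsupport c) : c z = 0 :=
  image_eq_zero_of_notMem_tsupport hz

lemma _root_.Vale.Agent.P088.HY.TF.ndzero {c : VV n → ℝ} {z : VV n} (hz : z ∉ tsupport c) (e : VV n) : dd e c z = 0 := by
  have h1 : c =ᶠ[𝓝 z] fun _ => 0 := notMem_tsupport_iff_eventuallyEq.1 hz
  rw [dd_congr h1, dd_const]

lemma _root_.Vale.Agent.P088.HY.TF.nmulS {f g : VV n → ℝ} (hf : TF (Un n) f) (hg : SU g) :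
    TF (Un n) (fun z => f z * g z) :=
  hf.nof (hf.nsu.mul hg) fun z hz => by rw [TF.nzero hz, zero_mul]

lemma _root_.Vale.Agent.P088.HY.TF.nmulS' {f g : VV n → ℝ} (hf : TF (Un n) f) (hg : SU g) :
    TF (Un n) (fun z => g z * f z) :=
  (hf.nmulS hg).ncongr fun _ => mul_comm _ _

lemma _root_.Vale.Agent.P088.HY.TF.nadd {f g : VV n → ℝ} (hf : TF (Un n) f) (hg : TF (Un n) g) :
    TF (Un n) (fun z => f z + g z) := by
  refine tf_of (hf.2.1.isCompact.union hg.2.1.isCompact) (union_subset hf.2.2 hg.2.2)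
    (hf.nsu.add hg.nsu) fun z hz => ?_
  rw [mem_union, not_or] at hz
  rw [TF.nzero hz.1, TF.nzero hz.2, add_zero]

lemma _root_.Vale.Agent.P088.HY.TF.ncmul {f : VV n → ℝ} (hf : TF (Un n) f) (a : ℝ) : TF (Un n) (fun z => a * f z) :=
  hf.nmulS' (g := fun _ => a) contDiffOn_const

lemma _root_.Vale.Agent.P088.HY.TF.nneg {f : VV n → ℝ} (hf : TF (Un n) f) : TF (Un n) (fun z => -f z) :=
  (hf.ncmul (-1)).ncongr fun z => by ring

lemma _root_.Vale.Agent.P088.HY.TF.nsub {f g : VV n → ℝ} (hf : TF (Un n) f) (hg : TF (Un n) g) :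
    TF (Un n) (fun z => f z - g z) :=
  (hf.nadd hg.nneg).ncongr fun z => by ring

lemma tf_zero : TF (Un n) (fun _ => 0) :=
  tf_of isCompact_empty (empty_subset _) contDiffOn_const fun _ _ => rfl

lemma tf_sum {ι : Type*} (s : Finset ι) {f : ι → VV n → ℝ} (h : ∀ i ∈ s, TF (Un n) (f i)) :
    TF (Un n) (fun z => ∑ i ∈ s, f i z) := by
  classical
  induction s using Finset.induction_on with
  | empty => simpa using tf_zero
  | insert a s ha ih =>
    have h1 := TF.nadd (h a (Finset.mem_insert_self a s))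
      (ih fun i hi => h i (Finset.mem_insert_of_mem hi))
    exact h1.ncongr fun z => by rw [Finset.sum_insert ha]

/-! ### Smoothness of `θ` -/

lemma su_th : SU (th : VV n → ℝ) := by
  have h1 : SU (fun z : VV n => (r1 z * r2 z) ^ n) := (su_r1.mul su_r2).pow n
  exact h1.inv fun z hz => (pow_pos (mul_pos (r1_pos hz) (r2_pos hz)) n).ne'

lemma th_pos {z : VV n} (hz : z ∈ Un n) : 0 < th z := by
  have := pow_pos (mul_pos (r1_pos hz) (r2_pos hz)) n
  exact inv_pos.2 this

lemma _root_.Vale.Agent.P088.HY.TF.nintegrable {f : VV n → ℝ} (hf : TF (Un n) f) : Integrable f :=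
  hf.1.continuous.integrable_of_hasCompactSupport hf.2.1

/-! ### The integral `EE` -/

/-- `∫ θ f`. -/
def EI (f : VV n → ℝ) : ℝ := ∫ z in Un n, th z * f z

lemma _root_.Vale.Agent.P088.HY.TF.nth {f : VV n → ℝ} (hf : TF (Un n) f) : TF (Un n) (fun z => th z * f z) :=
  hf.nmulS' su_th

lemma EI_add {f g : VV n → ℝ} (hf : TF (Un n) f) (hg : TF (Un n) g) :
    EI (fun z => f z + g z) = EI f + EI g := by
  unfold EI
  rw [← integral_add hf.nth.nintegrable.integrableOn hg.nth.nintegrable.integrableOn]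
  congr 1
  funext z
  ring

lemma EI_cmul (a : ℝ) (f : VV n → ℝ) : EI (fun z => a * f z) = a * EI f := by
  unfold EI
  rw [← integral_const_mul]
  congr 1
  funext z
  ring

lemma EI_sum {ι : Type*} (s : Finset ι) {f : ι → VV n → ℝ} (h : ∀ i ∈ s, TF (Un n) (f i)) :
    EI (fun z => ∑ i ∈ s, f i z) = ∑ i ∈ s, EI (f i) := by
  classical
  induction s using Finset.induction_on with
  | empty =>
    simp only [Finset.sum_empty]
    unfold EI
    simp
  | insert a s ha ih =>
    rw [Finset.sum_insert ha, ← ih fun i hi => h i (Finset.mem_insert_of_mem hi),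
      ← EI_add (h a (Finset.mem_insert_self a s))
        (tf_sum s fun i hi => h i (Finset.mem_insert_of_mem hi))]
    congr 1
    funext z
    rw [Finset.sum_insert ha]

lemma EI_congr {f g : VV n → ℝ} (h : ∀ z ∈ Un n, f z = g z) : EI f = EI g := by
  unfold EI
  refine setIntegral_congr_fun (isOpen_Un.measurableSet) fun z hz => ?_
  show th z * f z = th z * g z
  rw [h z hz]

lemma EI_mono {f g : VV n → ℝ} (hf : TF (Un n) f) (hg : TF (Un n) g)
    (h : ∀ z ∈ Un n, f z ≤ g z) : EI f ≤ EI g := by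
  unfold EI
  refine setIntegral_mono_on hf.nth.nintegrable.integrableOn hg.nth.nintegrable.integrableOn
    isOpen_Un.measurableSet fun z hz => ?_
  exact mul_le_mul_of_nonneg_left (h z hz) (th_pos hz).le

/-- A linear combination given by a list. -/
def lc (L : List (ℝ × (VV n → ℝ))) (z : VV n) : ℝ := (L.map fun p => p.1 * p.2 z).sum

lemma tf_lc {L : List (ℝ × (VV n → ℝ))} (h : L.Forall fun p => TF (Un n) p.2) :
    TF (Un n) (lc L) := by
  induction L with
  | nil => exact tf_zero.ncongr fun z => by simp [lc]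
  | cons p L ih =>
    rw [List.forall_cons] at h
    exact ((h.1.ncmul p.1).nadd (ih h.2)).ncongr fun z => by simp [lc]

lemma EI_lc {L : List (ℝ × (VV n → ℝ))} (h : L.Forall fun p => TF (Un n) p.2) :
    EI (lc L) = (L.map fun p => p.1 * EI p.2).sum := by
  induction L with
  | nil =>
    unfold EI lc
    simp
  | cons p L ih =>
    rw [List.forall_cons] at h
    have e : lc (p :: L) = fun z => p.1 * p.2 z + lc L z := by
      funext z; simp [lc]
    rw [e, EI_add (h.1.ncmul p.1) (tf_lc h.2), EI_cmul, ih h.2]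
    simp

/-- Positivity of a combination of test functions. -/
lemma EI_lin (L : List (ℝ × (VV n → ℝ))) (h : L.Forall fun p => TF (Un n) p.2)
    (h0 : ∀ z ∈ Un n, 0 ≤ (L.map fun p => p.1 * p.2 z).sum) :
    0 ≤ (L.map fun p => p.1 * EI p.2).sum := by
  rw [← EI_lc h]
  have h1 : EI (fun _ : VV n => (0 : ℝ)) ≤ EI (lc L) := EI_mono tf_zero (tf_lc h) h0
  have h2 : EI (fun _ : VV n => (0 : ℝ)) = 0 := by
    unfold EI
    simp
  rwa [h2] at h1

/-! ### The frames with one index -/

/-- Indices of the frame on pairs. -/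
abbrev J (n : ℕ) := Fin n ⊕ Fin n

/-- The factor. -/
def rh : J n → VV n → ℝ
  | Sum.inl _ => r1
  | Sum.inr _ => r2

/-- The direction. -/
def ed : J n → VV n
  | Sum.inl i => (Pi.single i 1, 0)
  | Sum.inr i => (0, Pi.single i 1)

/-- The coordinates. -/
def xc : J n → VV n → ℝ
  | Sum.inl i => fun z => z.1 i
  | Sum.inr i => fun z => z.2 i

/-- The frame. -/
def D (a : J n) (f : VV n → ℝ) : VV n → ℝ := Dr (rh a) (ed a) f

lemma D_inl (i : Fin n) (f : VV n → ℝ) : D (Sum.inl i) f = Ax i f := rfl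

lemma D_inr (i : Fin n) (f : VV n → ℝ) : D (Sum.inr i) f = By i f := rfl

lemma su_rh (a : J n) : SU (rh a) := by
  cases a with
  | inl i => exact su_r1
  | inr i => exact su_r2

lemma su_xc (a : J n) : SU (xc a) := by
  cases a with
  | inl i => exact su_x i
  | inr i => exact su_y i

lemma su_D {f : VV n → ℝ} (hf : SU f) (a : J n) : SU (D a f) := SU.Dr (su_rh a) hf _

lemma _root_.Vale.Agent.P088.HY.TF.nD {f : VV n → ℝ} (hf : TF (Un n) f) (a : J n) : TF (Un n) (D a f) :=
  hf.nof (su_D hf.nsu a) fun z hz => by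
    show rh a z * dd (ed a) f z = 0
    rw [TF.ndzero hz, mul_zero]

lemma _root_.Vale.Agent.P088.HY.TF.nDzero {c : VV n → ℝ} {z : VV n} (hz : z ∉ tsupport c) (a : J n) :
    N2.D a c z = 0 := by
  show rh a z * dd (ed a) c z = 0
  rw [TF.ndzero hz, mul_zero]

lemma xc_le {z : VV n} (hz : z ∈ Un n) (a : J n) : |xc a z| ≤ 1 := by
  have key : ∀ x : V n, x ∈ Bn n → ∀ i, |x i| ≤ 1 := by
    intro x hx i
    have h1 : sq x < 1 := hx
    have h2 : x i ^ 2 ≤ sq x :=
      Finset.single_le_sum (f := fun j => x j ^ 2) (fun j _ => sq_nonneg _) (Finset.mem_univ i)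
    exact abs_le_one_iff_mul_self_le_one.2 (by nlinarith)
  cases a with
  | inl i => exact key _ hz.1 i
  | inr i => exact key _ hz.2 i

lemma D_add {f g : VV n → ℝ} (hf : SU f) (hg : SU g) {z : VV n} (hz : z ∈ Un n) (a : J n) :
    D a (fun z => f z + g z) z = D a f z + D a g z := Dr_add hf hg hz

lemma D_sub {f g : VV n → ℝ} (hf : SU f) (hg : SU g) {z : VV n} (hz : z ∈ Un n) (a : J n) :
    D a (fun z => f z - g z) z = D a f z - D a g z := Dr_sub hf hg hz

lemma D_mul {f g : VV n → ℝ} (hf : SU f) (hg : SU g) {z : VV n} (hz : z ∈ Un n) (a : J n) :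
    D a (fun z => f z * g z) z = D a f z * g z + f z * D a g z := Dr_mul hf hg hz

lemma D_const (c : ℝ) (z : VV n) (a : J n) : D a (fun _ => c) z = 0 := Dr_const c

lemma D_cmul (c : ℝ) (f : VV n → ℝ) (z : VV n) (a : J n) :
    D a (fun z => c * f z) z = c * D a f z := Dr_cmul c

lemma D_sum {ι : Type*} (t : Finset ι) {F : ι → VV n → ℝ} (h : ∀ i, SU (F i)) {z : VV n}
    (hz : z ∈ Un n) (a : J n) : D a (fun z => ∑ i ∈ t, F i z) z = ∑ i ∈ t, D a (F i) z :=
  Dr_sum t h hz

lemma D_congr {f g : VV n → ℝ} (h : ∀ z ∈ Un n, f z = g z) {z : VV n} (hz : z ∈ Un n) (a : J n) :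
    D a f z = D a g z := Dr_congr h hz

/-- The structure constants are bounded. -/
lemma D_comm_le {f : VV n → ℝ} (hf : SU f) {z : VV n} (hz : z ∈ Un n) (a b : J n) :
    |D a (D b f) z - D b (D a f) z| ≤ |D a f z| + |D b f z| := by
  have hx := xc_le hz
  cases a with
  | inl i =>
    cases b with
    | inl j =>
      have h := Ax_comm hf hz i j
      have e : D (Sum.inl i) (D (Sum.inl j) f) z - D (Sum.inl j) (D (Sum.inl i) f) z =
          z.1 j * Ax i f z - z.1 i * Ax j f z := by
        show Ax i (Ax j f) z - Ax j (Ax i f) z = _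
        rw [h]; ring
      rw [e]
      have h1 : |z.1 j| ≤ 1 := hx (Sum.inl j)
      have h2 : |z.1 i| ≤ 1 := hx (Sum.inl i)
      calc |z.1 j * Ax i f z - z.1 i * Ax j f z|
          ≤ |z.1 j * Ax i f z| + |z.1 i * Ax j f z| := abs_sub _ _
        _ = |z.1 j| * |Ax i f z| + |z.1 i| * |Ax j f z| := by rw [abs_mul, abs_mul]
        _ ≤ 1 * |Ax i f z| + 1 * |Ax j f z| := by gcongr
        _ = |Ax i f z| + |Ax j f z| := by ring
    | inr j =>
      have h := Ax_By_comm hf hz i j
      have e : D (Sum.inl i) (D (Sum.inr j) f) z - D (Sum.inr j) (D (Sum.inl i) f) z = 0 := by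
        show Ax i (By j f) z - By j (Ax i f) z = _
        rw [h]; ring
      rw [e, abs_zero]
      positivity
  | inr i =>
    cases b with
    | inl j =>
      have h := Ax_By_comm hf hz j i
      have e : D (Sum.inr i) (D (Sum.inl j) f) z - D (Sum.inl j) (D (Sum.inr i) f) z = 0 := by
        show By i (Ax j f) z - Ax j (By i f) z = _
        rw [h]; ring
      rw [e, abs_zero]
      positivity
    | inr j =>
      have h := By_comm hf hz i j
      have e : D (Sum.inr i) (D (Sum.inr j) f) z - D (Sum.inr j) (D (Sum.inr i) f) z =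
          z.2 j * By i f z - z.2 i * By j f z := by
        show By i (By j f) z - By j (By i f) z = _
        rw [h]; ring
      rw [e]
      have h1 : |z.2 j| ≤ 1 := hx (Sum.inr j)
      have h2 : |z.2 i| ≤ 1 := hx (Sum.inr i)
      calc |z.2 j * By i f z - z.2 i * By j f z|
          ≤ |z.2 j * By i f z| + |z.2 i * By j f z| := abs_sub _ _
        _ = |z.2 j| * |By i f z| + |z.2 i| * |By j f z| := by rw [abs_mul, abs_mul]
        _ ≤ 1 * |By i f z| + 1 * |By j f z| := by gcongr
        _ = |By i f z| + |By j f z| := by ring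

/-! ### Integration by parts -/

/-- The integral of a derivative of a test function vanishes. -/
lemma int_dd {g : VV n → ℝ} (hg : TF (Un n) g) (e : VV n) : ∫ z in Un n, dd e g z = 0 := by
  have h0 : ∀ z, z ∉ Un n → dd e g z = 0 := fun z hz => TF.ndzero (fun h => hz (hg.2.2 h)) e
  rw [setIntegral_eq_integral_of_forall_compl_eq_zero h0]
  have hc : Continuous (fun z => dd e g z) := by
    unfold dd
    exact (hg.1.continuous_fderiv (by simp)).clm_apply continuous_const
  have hs : HasCompactSupport (fun z => dd e g z) := by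
    unfold dd
    exact hg.2.1.fderiv_apply (𝕜 := ℝ) e
  have : (volume : Measure (VV n)).IsAddHaarMeasure :=
    MeasureTheory.Measure.prod.instIsAddHaarMeasure _ _
  have h1 := integral_mul_fderiv_eq_neg_fderiv_mul_of_integrable (μ := (volume : Measure (VV n)))
    (f := fun _ : VV n => (1 : ℝ)) (g := g) (v := e) (by simp)
    (by
      simp only [one_mul]
      exact hc.integrable_of_hasCompactSupport hs)
    (by
      simp only [one_mul]
      exact hg.nintegrable)
    (fun _ _ => differentiableAt_const _) (fun z _ => hg.1.differentiable (by simp) z)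
  have h2 : ∫ z, dd e g z = ∫ z, (1 : ℝ) * fderiv ℝ g z e := by
    congr 1
    funext z
    rw [one_mul]
    rfl
  rw [h2, h1]
  simp

lemma dd_th {z : VV n} (hz : z ∈ Un n) (a : J n) :
    dd (ed a) (fun z => rh a z * th z) z = ((n : ℝ) - 1) * xc a z * th z := by
  have h1 := r1_pos hz
  have h2 := r2_pos hz
  have hth : (th : VV n → ℝ) = fun z => ((r1 z * r2 z) ^ n)⁻¹ := rfl
  have hp : SU (fun z : VV n => r1 z * r2 z) := su_r1.mul su_r2
  have hpn : SU (fun z : VV n => (r1 z * r2 z) ^ n) := hp.pow n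
  have hne : (r1 z * r2 z) ^ n ≠ 0 := (pow_pos (mul_pos h1 h2) n).ne'
  have e1 : dd (ed a) th z =
      -(n * (r1 z * r2 z) ^ (n - 1) * (dd (ed a) r1 z * r2 z + r1 z * dd (ed a) r2 z)) /
        ((r1 z * r2 z) ^ n) ^ 2 := by
    rw [hth, dd_inv (SU.d hpn hz) hne, dd_pow (SU.d hp hz), dd_mul (SU.d su_r1 hz) (SU.d su_r2 hz)]
  rw [dd_mul (SU.d (su_rh a) hz) (SU.d su_th hz), e1]
  have hpow : (n : ℝ) * (r1 z * r2 z) ^ (n - 1) * (r1 z * r2 z) = n * (r1 z * r2 z) ^ n := by
    cases n with
    | zero => simp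
    | succ m => rw [Nat.add_sub_cancel]; ring
  have ht : th z = ((r1 z * r2 z) ^ n)⁻¹ := rfl
  rw [ht]
  have hq : (r1 z * r2 z) ≠ 0 := (mul_pos h1 h2).ne'
  cases a with
  | inl i =>
    have e2 : dd (ed (Sum.inl i)) r1 z = -z.1 i := by
      show dd (Pi.single i 1, 0) r1 z = _
      rw [dd_rr1, sum_single_mul i fun j => z.1 j]
    have e3 : dd (ed (Sum.inl i)) r2 z = 0 := by
      show dd (Pi.single i 1, 0) r2 z = _
      rw [dd_rr2]; simp
    show dd (ed (Sum.inl i)) r1 z * _ + r1 z * _ = (n - 1) * z.1 i * _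
    rw [e2, e3]
    field_simp
    have : (n : ℝ) * (r1 z * r2 z) ^ (n - 1) * (r1 z * r2 z) * z.1 i =
      n * (r1 z * r2 z) ^ n * z.1 i := by rw [hpow]
    linear_combination this
  | inr i =>
    have e2 : dd (ed (Sum.inr i)) r2 z = -z.2 i := by
      show dd (0, Pi.single i 1) r2 z = _
      rw [dd_rr2, sum_single_mul i fun j => z.2 j]
    have e3 : dd (ed (Sum.inr i)) r1 z = 0 := by
      show dd (0, Pi.single i 1) r1 z = _
      rw [dd_rr1]; simp
    show dd (ed (Sum.inr i)) r2 z * _ + r2 z * _ = (n - 1) * z.2 i * _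
    rw [e2, e3]
    field_simp
    have : (n : ℝ) * (r1 z * r2 z) ^ (n - 1) * (r1 z * r2 z) * z.2 i =
      n * (r1 z * r2 z) ^ n * z.2 i := by rw [hpow]
    linear_combination this

/-- `∫ θ (D_a f + (n - 1) x_a f) = 0`. -/
lemma EI_D {f : VV n → ℝ} (hf : TF (Un n) f) (a : J n) :
    EI (fun z => D a f z + ((n : ℝ) - 1) * xc a z * f z) = 0 := by
  have hg : TF (Un n) (fun z => (rh a z * th z) * f z) := hf.nmulS' ((su_rh a).mul su_th)
  rw [← int_dd hg (ed a)]
  unfold EI
  refine setIntegral_congr_fun (isOpen_Un.measurableSet) fun z hz => ?_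
  have h1 : SU (fun z : VV n => rh a z * th z) := (su_rh a).mul su_th
  show th z * (D a f z + ((n : ℝ) - 1) * xc a z * f z) =
    dd (ed a) (fun z => (rh a z * th z) * f z) z
  rw [dd_mul (SU.d h1 hz) (SU.d hf.nsu hz), dd_th hz]
  show th z * (rh a z * dd (ed a) f z + _) = _
  ring

end Vale.Agent.P088.HY.N2
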