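import Vale.Agent.P088.R2.H558.Est
import Vale.Agent.P088.R2.H814.Cal

/-!
# P088, the form `Γ`, the operator `L₀` and the commutator form on pairs of points
-/

open MeasureTheory Set Filter
open scoped ContDiff Matrix Topology

noncomputable section

namespace Vale.Agent.P088.HY.N2

open Vale.Agent.P088.LR

variable {n : ℕ}

/-! ### Bounds of tensors -/

lemma ts_sub {K : ℕ} {ε : ℝ} {s : MF n} (h : TS n K ε s) (x : V n) (i j : Fin n) :
    |s x i j - (1 : Matrix (Fin n) (Fin n) ℝ) i j| ≤ ε := by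
  have h1 := h.cl i j 0 (Nat.zero_le _) x
  rwa [norm_iteratedFDeriv_zero, Real.norm_eq_abs] at h1

lemma ts_pd {K : ℕ} {ε : ℝ} {s : MF n} (h : TS n (K + 1) ε s) (x : V n) (i j k : Fin n) :
    |pd k (fun x => s x i j) x| ≤ ε := by
  have h1 := h.cl i j 1 (by omega) x
  rw [norm_iteratedFDeriv_one] at h1
  have h2 : fderiv ℝ (fun x => s x i j - (1 : Matrix (Fin n) (Fin n) ℝ) i j) x =
      fderiv ℝ (fun x => s x i j) x := fderiv_sub_const _
  rw [h2] at h1
  unfold pd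
  rw [← Real.norm_eq_abs]
  refine (ContinuousLinearMap.le_opNorm _ _).trans ?_
  have h3 : ‖(Pi.single k (1 : ℝ) : V n)‖ = 1 := by
    rw [Pi.norm_single]; simp
  rw [h3, mul_one]
  exact h1

/-- The coefficients on pairs. -/
def Sg (s₁ s₂ : MF n) : J n → J n → VV n → ℝ
  | Sum.inl i, Sum.inl j => fun z => s₁ z.1 i j
  | Sum.inr i, Sum.inr j => fun z => s₂ z.2 i j
  | Sum.inl _, Sum.inr _ => fun _ => 0
  | Sum.inr _, Sum.inl _ => fun _ => 0

/-- Kronecker delta. -/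
def dl (a b : J n) : ℝ := if a = b then 1 else 0

lemma sum_dl (a : J n) (f : J n → ℝ) : ∑ b, dl a b * f b = f a := by
  unfold dl
  simp

section

variable {ε : ℝ} {s₁ s₂ : MF n}

lemma su_Sg (h₁ : TS n 3 ε s₁) (h₂ : TS n 3 ε s₂) (a b : J n) : SU (Sg s₁ s₂ a b) := by
  cases a with
  | inl i =>
    cases b with
    | inl j => exact ((h₁.sm i j).comp contDiff_fst).contDiffOn
    | inr j => exact contDiffOn_const
  | inr i =>
    cases b with
    | inl j => exact contDiffOn_const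
    | inr j => exact ((h₂.sm i j).comp contDiff_snd).contDiffOn

lemma Sg_sub (h₁ : TS n 3 ε s₁) (h₂ : TS n 3 ε s₂) (h0 : 0 ≤ ε) (a b : J n) (z : VV n) :
    |Sg s₁ s₂ a b z - dl a b| ≤ ε := by
  cases a with
  | inl i =>
    cases b with
    | inl j =>
      have := ts_sub h₁ z.1 i j
      have e : dl (Sum.inl i : J n) (Sum.inl j) = (1 : Matrix (Fin n) (Fin n) ℝ) i j := by
        unfold dl; rw [Matrix.one_apply]; simp
      rw [e]; exact this
    | inr j =>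
      show |(0 : ℝ) - dl (Sum.inl i) (Sum.inr j)| ≤ ε
      unfold dl; simpa using h0
  | inr i =>
    cases b with
    | inl j =>
      show |(0 : ℝ) - dl (Sum.inr i) (Sum.inl j)| ≤ ε
      unfold dl; simpa using h0
    | inr j =>
      have := ts_sub h₂ z.2 i j
      have e : dl (Sum.inr i : J n) (Sum.inr j) = (1 : Matrix (Fin n) (Fin n) ℝ) i j := by
        unfold dl; rw [Matrix.one_apply]; simp
      rw [e]; exact this

lemma Sg_le (h₁ : TS n 3 ε s₁) (h₂ : TS n 3 ε s₂) (h0 : 0 ≤ ε) (h1 : ε ≤ 1) (a b : J n)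
    (z : VV n) : |Sg s₁ s₂ a b z| ≤ 2 := by
  have h := Sg_sub h₁ h₂ h0 a b z
  have hd : |dl a b| ≤ 1 := by
    unfold dl; split_ifs <;> simp
  calc |Sg s₁ s₂ a b z| = |(Sg s₁ s₂ a b z - dl a b) + dl a b| := by ring_nf
    _ ≤ |Sg s₁ s₂ a b z - dl a b| + |dl a b| := abs_add_le _ _
    _ ≤ 2 := by linarith

lemma Sg_symm (h₁ : TS n 3 ε s₁) (h₂ : TS n 3 ε s₂) (a b : J n) (z : VV n) :
    Sg s₁ s₂ a b z = Sg s₁ s₂ b a z := by
  cases a with
  | inl i =>
    cases b with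
    | inl j => exact (h₁.sy z.1).apply j i
    | inr j => rfl
  | inr i =>
    cases b with
    | inl j => rfl
    | inr j => exact (h₂.sy z.2).apply j i

lemma rr_le_one {x : V n} (hx : x ∈ Bn n) : |rr x| ≤ 1 := by
  rw [abs_of_pos (rr_pos hx)]
  linarith [rr_le x]

lemma D_Sg_le (h₁ : TS n 3 ε s₁) (h₂ : TS n 3 ε s₂) (h0 : 0 ≤ ε) (a b c : J n) {z : VV n}
    (hz : z ∈ Un n) : |D c (Sg s₁ s₂ a b) z| ≤ ε := by
  have key : ∀ {t p : ℝ}, |t| ≤ 1 → |p| ≤ ε → |t * p| ≤ ε := by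
    intro t p ht hp
    rw [abs_mul]
    calc |t| * |p| ≤ 1 * ε := by gcongr
      _ = ε := one_mul _
  cases a with
  | inl i =>
    cases b with
    | inl j =>
      have hd : DifferentiableAt ℝ (fun x => s₁ x i j) z.1 :=
        (h₁.sm i j).differentiable (by simp) z.1
      cases c with
      | inl k =>
        show |rr z.1 * dx k (fun z => s₁ z.1 i j) z| ≤ ε
        rw [dx_comp_fst hd]
        exact key (rr_le_one hz.1) (ts_pd h₁ _ _ _ _)
      | inr k =>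
        show |rr z.2 * dy k (fun z => s₁ z.1 i j) z| ≤ ε
        rw [dy_comp_fst (fun x => s₁ x i j)]
        simpa using h0
    | inr j =>
      show |D c (fun _ => 0) z| ≤ ε
      rw [D_const]; simpa using h0
  | inr i =>
    cases b with
    | inl j =>
      show |D c (fun _ => 0) z| ≤ ε
      rw [D_const]; simpa using h0
    | inr j =>
      have hd : DifferentiableAt ℝ (fun x => s₂ x i j) z.2 :=
        (h₂.sm i j).differentiable (by simp) z.2
      cases c with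
      | inl k =>
        show |rr z.1 * dx k (fun z => s₂ z.2 i j) z| ≤ ε
        rw [dx_comp_snd (fun x => s₂ x i j)]
        simpa using h0
      | inr k =>
        show |rr z.2 * dy k (fun z => s₂ z.2 i j) z| ≤ ε
        rw [dy_comp_snd hd]
        exact key (rr_le_one hz.2) (ts_pd h₂ _ _ _ _)

/-- The coefficients are divergence free. -/
lemma Sg_div (h₁ : TS n 3 ε s₁) (h₂ : TS n 3 ε s₂) (b : J n) {z : VV n} (hz : z ∈ Un n) :
    ∑ a, D a (Sg s₁ s₂ a b) z = 0 := by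
  rw [Fintype.sum_sum_type]
  cases b with
  | inl j =>
    have e1 : ∀ i, D (Sum.inl i) (Sg s₁ s₂ (Sum.inl i) (Sum.inl j)) z =
        rr z.1 * pd i (fun x => s₁ x i j) z.1 := by
      intro i
      show rr z.1 * dx i (fun z => s₁ z.1 i j) z = _
      rw [dx_comp_fst ((h₁.sm i j).differentiable (by simp) z.1)]
    have e2 : ∀ i, D (Sum.inr i) (Sg s₁ s₂ (Sum.inr i) (Sum.inl j)) z = 0 := by
      intro i
      show D (Sum.inr i) (fun _ => 0) z = 0
      exact D_const _ _ _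
    simp only [e1, e2, ← Finset.mul_sum, h₁.dv z.1 hz.1 j, mul_zero, Finset.sum_const_zero,
      add_zero]
  | inr j =>
    have e1 : ∀ i, D (Sum.inr i) (Sg s₁ s₂ (Sum.inr i) (Sum.inr j)) z =
        rr z.2 * pd i (fun x => s₂ x i j) z.2 := by
      intro i
      show rr z.2 * dy i (fun z => s₂ z.2 i j) z = _
      rw [dy_comp_snd ((h₂.sm i j).differentiable (by simp) z.2)]
    have e2 : ∀ i, D (Sum.inl i) (Sg s₁ s₂ (Sum.inl i) (Sum.inr j)) z = 0 := by
      intro i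
      show D (Sum.inl i) (fun _ => 0) z = 0
      exact D_const _ _ _
    simp only [e1, e2, ← Finset.mul_sum, h₂.dv z.2 hz.2 j, mul_zero, Finset.sum_const_zero,
      zero_add]

end

/-! ### The form and the operator -/

/-- `Γ(f, h)`. -/
def Gt (s₁ s₂ : MF n) (f h : VV n → ℝ) (z : VV n) : ℝ :=
  ∑ a, ∑ b, Sg s₁ s₂ a b z * D a f z * D b h z

/-- `L₀ f`. -/
def Lt (s₁ s₂ : MF n) (f : VV n → ℝ) (z : VV n) : ℝ :=
  ∑ a, ∑ b, Sg s₁ s₂ a b z * (D a (D b f) z + ((n : ℝ) - 1) * xc a z * D b f z)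

lemma Gt_eq (s₁ s₂ : MF n) (f h : VV n → ℝ) (z : VV n) :
    Gt s₁ s₂ f h z = Gax s₁ f h z + Gay s₂ f h z := by
  unfold Gt Gax Gay
  rw [Fintype.sum_sum_type]
  simp only [Fintype.sum_sum_type]
  simp [Sg, D_inl, D_inr]

lemma Lt_eq (s₁ s₂ : MF n) (f : VV n → ℝ) (z : VV n) :
    Lt s₁ s₂ f z = L0x s₁ f z + L0y s₂ f z := by
  unfold Lt L0x L0y
  rw [Fintype.sum_sum_type]
  simp only [Fintype.sum_sum_type]
  simp [Sg, D_inl, D_inr, xc]

lemma g2_eq (f : VV n → ℝ) (z : VV n) : g2 f z = ∑ a, D a f z ^ 2 := by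
  unfold g2
  rw [Fintype.sum_sum_type]
  simp [D_inl, D_inr]

lemma g2_nonneg (f : VV n → ℝ) (z : VV n) : 0 ≤ g2 f z := by
  rw [g2_eq]
  exact Finset.sum_nonneg fun _ _ => sq_nonneg _

lemma D_sq_le (f : VV n → ℝ) (z : VV n) (a : J n) : D a f z ^ 2 ≤ g2 f z := by
  rw [g2_eq]
  exact Finset.single_le_sum (f := fun a => D a f z ^ 2) (fun _ _ => sq_nonneg _)
    (Finset.mem_univ a)

section

variable {ε : ℝ} {s₁ s₂ : MF n}

lemma su_Gt (h₁ : TS n 3 ε s₁) (h₂ : TS n 3 ε s₂) {f h : VV n → ℝ} (hf : SU f) (hh : SU h) :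
    SU (Gt s₁ s₂ f h) := by
  unfold Gt
  exact ContDiffOn.sum fun a _ => ContDiffOn.sum fun b _ =>
    ((su_Sg h₁ h₂ a b).mul (su_D hf a)).mul (su_D hh b)

lemma su_Lt (h₁ : TS n 3 ε s₁) (h₂ : TS n 3 ε s₂) {f : VV n → ℝ} (hf : SU f) :
    SU (Lt s₁ s₂ f) := by
  unfold Lt
  exact ContDiffOn.sum fun a _ => ContDiffOn.sum fun b _ =>
    (su_Sg h₁ h₂ a b).mul ((su_D (su_D hf b) a).add
      ((contDiffOn_const.mul (su_xc a)).mul (su_D hf b)))

lemma Gt_comm (h₁ : TS n 3 ε s₁) (h₂ : TS n 3 ε s₂) (f h : VV n → ℝ) (z : VV n) :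
    Gt s₁ s₂ f h z = Gt s₁ s₂ h f z := by
  unfold Gt
  rw [Finset.sum_comm]
  refine Finset.sum_congr rfl fun b _ => Finset.sum_congr rfl fun a _ => ?_
  rw [Sg_symm h₁ h₂ a b]
  ring

lemma Gt_mul_right {f g h : VV n → ℝ} (hg : SU g) (hh : SU h) {z : VV n} (hz : z ∈ Un n) :
    Gt s₁ s₂ f (fun z => g z * h z) z = g z * Gt s₁ s₂ f h z + h z * Gt s₁ s₂ f g z := by
  unfold Gt
  rw [Finset.mul_sum, Finset.mul_sum, ← Finset.sum_add_distrib]
  refine Finset.sum_congr rfl fun a _ => ?_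
  rw [Finset.mul_sum, Finset.mul_sum, ← Finset.sum_add_distrib]
  refine Finset.sum_congr rfl fun b _ => ?_
  rw [D_mul hg hh hz]
  ring

lemma Gt_mul_left {f g h : VV n → ℝ} (hg : SU g) (hh : SU h) {z : VV n} (hz : z ∈ Un n) :
    Gt s₁ s₂ (fun z => g z * h z) f z = g z * Gt s₁ s₂ h f z + h z * Gt s₁ s₂ g f z := by
  unfold Gt
  rw [Finset.mul_sum, Finset.mul_sum, ← Finset.sum_add_distrib]
  refine Finset.sum_congr rfl fun a _ => ?_
  rw [Finset.mul_sum, Finset.mul_sum, ← Finset.sum_add_distrib]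
  refine Finset.sum_congr rfl fun b _ => ?_
  rw [D_mul hg hh hz]
  ring

/-- If `D_a g = k D_a h` then `Γ(f, g) = k Γ(f, h)`. -/
lemma Gt_smul_right {f g h : VV n → ℝ} {z : VV n} {k : ℝ} (H : ∀ a, D a g z = k * D a h z) :
    Gt s₁ s₂ f g z = k * Gt s₁ s₂ f h z := by
  unfold Gt
  rw [Finset.mul_sum]
  refine Finset.sum_congr rfl fun a _ => ?_
  rw [Finset.mul_sum]
  refine Finset.sum_congr rfl fun b _ => ?_
  rw [H]
  ring

/-- Integration by parts. -/
theorem EI_ibp (h₁ : TS n 3 ε s₁) (h₂ : TS n 3 ε s₂) {f h : VV n → ℝ} (hf : SU f) (hh : SU h)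
    (H : ∀ b, TF (Un n) (fun z => D b f z * h z)) :
    EI (fun z => h z * Lt s₁ s₂ f z + Gt s₁ s₂ h f z) = 0 := by
  have hW : ∀ a, TF (Un n) (fun z => ∑ b, Sg s₁ s₂ a b z * (D b f z * h z)) := fun a =>
    tf_sum _ fun b _ => (H b).nmulS' (su_Sg h₁ h₂ a b)
  have hX : ∀ a, TF (Un n) (fun z => D a (fun z => ∑ b, Sg s₁ s₂ a b z * (D b f z * h z)) z +
      ((n : ℝ) - 1) * xc a z * ∑ b, Sg s₁ s₂ a b z * (D b f z * h z)) := fun a =>
    ((hW a).nD a).nadd ((hW a).nmulS' (contDiffOn_const.mul (su_xc a)))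
  have e0 : EI (fun z => ∑ a, (D a (fun z => ∑ b, Sg s₁ s₂ a b z * (D b f z * h z)) z +
      ((n : ℝ) - 1) * xc a z * ∑ b, Sg s₁ s₂ a b z * (D b f z * h z))) = 0 := by
    rw [EI_sum _ fun a _ => hX a]
    exact Finset.sum_eq_zero fun a _ => EI_D (hW a) a
  rw [← e0]
  refine EI_congr fun z hz => ?_
  have e1 : ∀ a, D a (fun z => ∑ b, Sg s₁ s₂ a b z * (D b f z * h z)) z =
      ∑ b, (D a (Sg s₁ s₂ a b) z * (D b f z * h z) +
        Sg s₁ s₂ a b z * (D a (D b f) z * h z + D b f z * D a h z)) := by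
    intro a
    rw [D_sum _ (fun b => (su_Sg h₁ h₂ a b).mul ((su_D hf b).mul hh)) hz]
    refine Finset.sum_congr rfl fun b _ => ?_
    rw [D_mul (su_Sg h₁ h₂ a b) ((su_D hf b).mul hh) hz, D_mul (su_D hf b) hh hz]
  have e2 : ∑ a, ∑ b, D a (Sg s₁ s₂ a b) z * (D b f z * h z) = 0 := by
    rw [Finset.sum_comm]
    refine Finset.sum_eq_zero fun b _ => ?_
    rw [← Finset.sum_mul, Sg_div h₁ h₂ b hz, zero_mul]
  have e3 : ∑ a, (D a (fun z => ∑ b, Sg s₁ s₂ a b z * (D b f z * h z)) z +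
      ((n : ℝ) - 1) * xc a z * ∑ b, Sg s₁ s₂ a b z * (D b f z * h z)) =
      ∑ a, ∑ b, D a (Sg s₁ s₂ a b) z * (D b f z * h z) +
      (∑ a, ∑ b, h z * (Sg s₁ s₂ a b z * (D a (D b f) z + ((n : ℝ) - 1) * xc a z * D b f z)) +
      ∑ a, ∑ b, Sg s₁ s₂ a b z * D a h z * D b f z) := by
    rw [← Finset.sum_add_distrib, ← Finset.sum_add_distrib]
    refine Finset.sum_congr rfl fun a _ => ?_
    rw [e1, Finset.mul_sum, ← Finset.sum_add_distrib, ← Finset.sum_add_distrib,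
      ← Finset.sum_add_distrib]
    refine Finset.sum_congr rfl fun b _ => ?_
    ring
  rw [e3, e2, zero_add]
  unfold Lt Gt
  simp only [Finset.mul_sum]

lemma EI_ibp_l (h₁ : TS n 3 ε s₁) (h₂ : TS n 3 ε s₂) {f h : VV n → ℝ} (hf : SU f)
    (hh : TF (Un n) h) : EI (fun z => h z * Lt s₁ s₂ f z + Gt s₁ s₂ h f z) = 0 :=
  EI_ibp h₁ h₂ hf hh.nsu fun b => hh.nmulS' (su_D hf b)

lemma EI_ibp_r (h₁ : TS n 3 ε s₁) (h₂ : TS n 3 ε s₂) {f h : VV n → ℝ} (hf : TF (Un n) f)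
    (hh : SU h) : EI (fun z => h z * Lt s₁ s₂ f z + Gt s₁ s₂ h f z) = 0 :=
  EI_ibp h₁ h₂ hf.nsu hh fun b => (hf.nD b).nmulS hh

/-! ### Pointwise bounds -/

lemma abs_sum_le {ι : Type*} [Fintype ι] {g : ι → ℝ} {M : ℝ} (h : ∀ i, |g i| ≤ M) :
    |∑ i, g i| ≤ Fintype.card ι * M := by
  refine (Finset.abs_sum_le_sum_abs _ _).trans ?_
  have := Finset.sum_le_card_nsmul Finset.univ (fun i => |g i|) M fun i _ => h i
  simpa [nsmul_eq_mul] using this

lemma card_J : (Fintype.card (J n) : ℝ) = 2 * n := by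
  simp [J]
  ring

lemma sq_sum_abs_le (f : J n → ℝ) : (∑ a, |f a|) ^ 2 ≤ (2 * n) * ∑ a, f a ^ 2 := by
  have h := sq_sum_le_card_mul_sum_sq (s := (Finset.univ : Finset (J n))) (f := fun a => |f a|)
  simp only [sq_abs, Finset.card_univ] at h
  rwa [card_J] at h

lemma Gt_sub_sq (h₁ : TS n 3 ε s₁) (h₂ : TS n 3 ε s₂) (h0 : 0 ≤ ε) (f h : VV n → ℝ) (z : VV n) :
    (Gt s₁ s₂ f h z - ∑ a, D a f z * D a h z) ^ 2 ≤ (2 * n * ε) ^ 2 * (g2 f z * g2 h z) := by
  have e : Gt s₁ s₂ f h z - ∑ a, D a f z * D a h z =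
      ∑ a, ∑ b, (Sg s₁ s₂ a b z - dl a b) * D a f z * D b h z := by
    have e1 : ∀ a, ∑ b, (Sg s₁ s₂ a b z - dl a b) * D a f z * D b h z =
        ∑ b, Sg s₁ s₂ a b z * D a f z * D b h z - D a f z * D a h z := by
      intro a
      have e2 : ∀ b, (Sg s₁ s₂ a b z - dl a b) * D a f z * D b h z =
          Sg s₁ s₂ a b z * D a f z * D b h z - D a f z * (dl a b * D b h z) := fun b => by ring
      simp only [e2, Finset.sum_sub_distrib, ← Finset.mul_sum]
      rw [sum_dl a fun b => D b h z]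
    simp only [e1, Finset.sum_sub_distrib]
    rfl
  have b1 : |∑ a, ∑ b, (Sg s₁ s₂ a b z - dl a b) * D a f z * D b h z| ≤
      ε * ((∑ a, |D a f z|) * ∑ b, |D b h z|) := by
    refine (Finset.abs_sum_le_sum_abs _ _).trans ?_
    rw [Finset.sum_mul, Finset.mul_sum]
    refine Finset.sum_le_sum fun a _ => ?_
    refine (Finset.abs_sum_le_sum_abs _ _).trans ?_
    rw [Finset.mul_sum, Finset.mul_sum]
    refine Finset.sum_le_sum fun b _ => ?_
    rw [abs_mul, abs_mul, mul_assoc]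
    exact mul_le_mul_of_nonneg_right (Sg_sub h₁ h₂ h0 a b z) (by positivity)
  rw [e, ← sq_abs]
  have hA : 0 ≤ ∑ a, |D a f z| := Finset.sum_nonneg fun _ _ => abs_nonneg _
  have hB : 0 ≤ ∑ b, |D b h z| := Finset.sum_nonneg fun _ _ => abs_nonneg _
  have h3 := sq_sum_abs_le fun a => D a f z
  have h4 := sq_sum_abs_le fun a => D a h z
  rw [← g2_eq] at h3 h4
  have hn : (0 : ℝ) ≤ 2 * n := by positivity
  calc |∑ a, ∑ b, (Sg s₁ s₂ a b z - dl a b) * D a f z * D b h z| ^ 2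
      ≤ (ε * ((∑ a, |D a f z|) * ∑ b, |D b h z|)) ^ 2 := by gcongr
    _ = ε ^ 2 * ((∑ a, |D a f z|) ^ 2 * (∑ b, |D b h z|) ^ 2) := by ring
    _ ≤ ε ^ 2 * ((2 * n * g2 f z) * (2 * n * g2 h z)) := by
        refine mul_le_mul_of_nonneg_left ?_ (sq_nonneg _)
        exact mul_le_mul h3 h4 (sq_nonneg _) (mul_nonneg hn (g2_nonneg _ _))
    _ = (2 * n * ε) ^ 2 * (g2 f z * g2 h z) := by ring

lemma Gt_self_sub (h₁ : TS n 3 ε s₁) (h₂ : TS n 3 ε s₂) (h0 : 0 ≤ ε) (f : VV n → ℝ) (z : VV n) :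
    |Gt s₁ s₂ f f z - g2 f z| ≤ 2 * n * ε * g2 f z := by
  have h := Gt_sub_sq h₁ h₂ h0 f f z
  have e : ∑ a, D a f z * D a f z = g2 f z := by
    rw [g2_eq]
    exact Finset.sum_congr rfl fun a _ => by ring
  rw [e] at h
  have hg := g2_nonneg f z
  refine abs_le_of_sq_le_sq ?_ (by positivity)
  calc _ ≤ _ := h
    _ = _ := by ring

lemma inner_sq_le (f h : VV n → ℝ) (z : VV n) :
    (∑ a, D a f z * D a h z) ^ 2 ≤ g2 f z * g2 h z := by
  rw [g2_eq, g2_eq]
  exact Finset.sum_mul_sq_le_sq_mul_sq _ _ _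

lemma Gt_sq_le (h₁ : TS n 3 ε s₁) (h₂ : TS n 3 ε s₂) (h0 : 0 ≤ ε) (h3 : 2 * n * ε ≤ 1)
    (f h : VV n → ℝ) (z : VV n) : Gt s₁ s₂ f h z ^ 2 ≤ 4 * (g2 f z * g2 h z) := by
  have a1 := Gt_sub_sq h₁ h₂ h0 f h z
  have a2 := inner_sq_le f h z
  have hg : 0 ≤ g2 f z * g2 h z := mul_nonneg (g2_nonneg _ _) (g2_nonneg _ _)
  have h4 : (2 * n * ε) ^ 2 ≤ 1 := by
    have : 0 ≤ 2 * (n : ℝ) * ε := by positivity
    nlinarith
  have a3 : (2 * n * ε) ^ 2 * (g2 f z * g2 h z) ≤ g2 f z * g2 h z := by nlinarith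
  nlinarith [sq_nonneg (Gt s₁ s₂ f h z - 2 * ∑ a, D a f z * D a h z)]

/-! ### Derivatives of `u` -/

lemma g2_uu {z : VV n} (hz : z ∈ Un n) : g2 uu z = 2 * (uu z ^ 2 - 1) := by
  have h1 := sum_al_sq hz
  have h2 := sum_be_sq hz
  have e1 : ∑ i, Ax i uu z ^ 2 = ∑ i, al i z * al i z := by
    refine Finset.sum_congr rfl fun i _ => ?_
    show al i z ^ 2 = _
    ring
  have e2 : ∑ i, By i uu z ^ 2 = ∑ i, be i z * be i z := by
    refine Finset.sum_congr rfl fun i _ => ?_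
    show be i z ^ 2 = _
    ring
  unfold g2
  rw [e1, e2, h1, h2]
  ring

lemma D_uu_le {z : VV n} (hz : z ∈ Un n) (a : J n) : |D a uu z| ≤ 2 * uu z := by
  have h := D_sq_le uu z a
  rw [g2_uu hz] at h
  have h1 := one_le_uu hz
  refine abs_le_of_sq_le_sq ?_ (by linarith)
  nlinarith

lemma al_le {z : VV n} (hz : z ∈ Un n) (i : Fin n) : |al i z| ≤ 2 * uu z :=
  D_uu_le hz (Sum.inl i)

lemma be_le {z : VV n} (hz : z ∈ Un n) (i : Fin n) : |be i z| ≤ 2 * uu z :=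
  D_uu_le hz (Sum.inr i)

/-- Second derivatives of `u`. -/
lemma DD_uu_le {z : VV n} (hz : z ∈ Un n) (a b : J n) :
    |D a (D b uu) z| ≤ (2 * n + 6) * uu z := by
  have hu := one_le_uu hz
  have hx := xc_le hz
  have hn : (0 : ℝ) ≤ n := Nat.cast_nonneg n
  have hk : ∀ i j : Fin n, |kd i j| ≤ 1 := by
    intro i j; unfold kd; split_ifs <;> simp
  have hxa : |xa z| ≤ n * (2 * uu z) := by
    unfold xa
    have := abs_sum_le (g := fun i : Fin n => z.1 i * al i z) (M := 2 * uu z) fun i => by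
      rw [abs_mul]
      calc |z.1 i| * |al i z| ≤ 1 * (2 * uu z) :=
            mul_le_mul (hx (Sum.inl i)) (al_le hz i) (abs_nonneg _) zero_le_one
        _ = 2 * uu z := one_mul _
    simpa using this
  have hyb : |yb z| ≤ n * (2 * uu z) := by
    unfold yb
    have := abs_sum_le (g := fun i : Fin n => z.2 i * be i z) (M := 2 * uu z) fun i => by
      rw [abs_mul]
      calc |z.2 i| * |be i z| ≤ 1 * (2 * uu z) :=
            mul_le_mul (hx (Sum.inr i)) (be_le hz i) (abs_nonneg _) zero_le_one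
        _ = 2 * uu z := one_mul _
    simpa using this
  have hdiag : ∀ k w t p : ℝ, |k| ≤ 1 → |w| ≤ n * (2 * uu z) → |t| ≤ 1 → |p| ≤ 2 * uu z →
      |k * (uu z - w) + t * p| ≤ (2 * n + 6) * uu z := by
    intro k w t p hk' hw ht hp
    calc |k * (uu z - w) + t * p| ≤ |k * (uu z - w)| + |t * p| := abs_add_le _ _
      _ = |k| * |uu z - w| + |t| * |p| := by rw [abs_mul, abs_mul]
      _ ≤ 1 * (|uu z| + |w|) + 1 * (2 * uu z) := by
          refine add_le_add (mul_le_mul hk' (abs_sub _ _) (abs_nonneg _) zero_le_one)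
            (mul_le_mul ht hp (abs_nonneg _) zero_le_one)
      _ ≤ (2 * n + 6) * uu z := by
          rw [abs_of_pos (by linarith : (0 : ℝ) < uu z)]
          nlinarith
  have hmix : ∀ i j : Fin n, |mm i j z| ≤ (2 * n + 6) * uu z := by
    intro i j
    rw [mm_eq hz]
    have t1 : |z.1 i * be j z| ≤ 2 * uu z := by
      rw [abs_mul]
      calc |z.1 i| * |be j z| ≤ 1 * (2 * uu z) :=
            mul_le_mul (hx (Sum.inl i)) (be_le hz j) (abs_nonneg _) zero_le_one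
        _ = 2 * uu z := one_mul _
    have t2 : |z.2 j * al i z| ≤ 2 * uu z := by
      rw [abs_mul]
      calc |z.2 j| * |al i z| ≤ 1 * (2 * uu z) :=
            mul_le_mul (hx (Sum.inr j)) (al_le hz i) (abs_nonneg _) zero_le_one
        _ = 2 * uu z := one_mul _
    have t3 : |(uu z - 1) * z.1 i * z.2 j| ≤ uu z := by
      rw [abs_mul, abs_mul, abs_of_nonneg (by linarith : (0 : ℝ) ≤ uu z - 1)]
      calc (uu z - 1) * |z.1 i| * |z.2 j| ≤ (uu z - 1) * 1 * 1 := by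
            have := hx (Sum.inl i)
            have := hx (Sum.inr j)
            have hh : (0 : ℝ) ≤ uu z - 1 := by linarith
            refine mul_le_mul (mul_le_mul_of_nonneg_left (hx (Sum.inl i)) hh) (hx (Sum.inr j))
              (abs_nonneg _) (by linarith)
        _ ≤ uu z := by linarith
    have t0 := hk i j
    calc |-kd i j + z.1 i * be j z + z.2 j * al i z - (uu z - 1) * z.1 i * z.2 j|
        ≤ |-kd i j + z.1 i * be j z + z.2 j * al i z| + |(uu z - 1) * z.1 i * z.2 j| := abs_sub _ _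
      _ ≤ (|-kd i j + z.1 i * be j z| + |z.2 j * al i z|) + |(uu z - 1) * z.1 i * z.2 j| := by
          gcongr; exact abs_add_le _ _
      _ ≤ ((|-kd i j| + |z.1 i * be j z|) + |z.2 j * al i z|) +
          |(uu z - 1) * z.1 i * z.2 j| := by gcongr; exact abs_add_le _ _
      _ ≤ (2 * n + 6) * uu z := by
          rw [abs_neg]
          nlinarith
  cases a with
  | inl i =>
    cases b with
    | inl j =>
      show |Ax i (al j) z| ≤ _
      rw [Ax_al hz]
      exact hdiag _ _ _ _ (hk i j) hxa (hx (Sum.inl j)) (al_le hz i)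
    | inr j => exact hmix i j
  | inr i =>
    cases b with
    | inl j =>
      show |By i (al j) z| ≤ _
      rw [By_al hz]
      exact hmix j i
    | inr j =>
      show |By i (be j) z| ≤ _
      rw [By_be hz]
      exact hdiag _ _ _ _ (hk i j) hyb (hx (Sum.inr j)) (be_le hz i)

/-- `κ = L₀ u` is bounded by `u`. -/
lemma Lt_uu_le (h₁ : TS n 3 ε s₁) (h₂ : TS n 3 ε s₂) (h0 : 0 ≤ ε) (h1 : ε ≤ 1) {z : VV n}
    (hz : z ∈ Un n) : |Lt s₁ s₂ uu z| ≤ (2 * n) ^ 2 * (2 * (4 * n + 8)) * uu z := by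
  have hu := one_le_uu hz
  have hn : (0 : ℝ) ≤ n := Nat.cast_nonneg n
  have hterm : ∀ a b : J n, |Sg s₁ s₂ a b z * (D a (D b uu) z +
      ((n : ℝ) - 1) * xc a z * D b uu z)| ≤ 2 * (4 * n + 8) * uu z := by
    intro a b
    rw [abs_mul]
    have b1 := DD_uu_le hz a b
    have b2 : |((n : ℝ) - 1) * xc a z * D b uu z| ≤ (n + 1) * (2 * uu z) := by
      rw [abs_mul, abs_mul]
      have c1 : |(n : ℝ) - 1| ≤ n + 1 := by rw [abs_le]; constructor <;> linarith
      calc |(n : ℝ) - 1| * |xc a z| * |D b uu z| ≤ (n + 1) * 1 * (2 * uu z) := by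
            refine mul_le_mul (mul_le_mul c1 (xc_le hz a) (abs_nonneg _) (by linarith))
              (D_uu_le hz b) (abs_nonneg _) (by linarith)
        _ = (n + 1) * (2 * uu z) := by ring
    calc |Sg s₁ s₂ a b z| * |D a (D b uu) z + ((n : ℝ) - 1) * xc a z * D b uu z|
        ≤ 2 * ((2 * n + 6) * uu z + (n + 1) * (2 * uu z)) := by
          refine mul_le_mul (Sg_le h₁ h₂ h0 h1 a b z) ((abs_add_le _ _).trans
            (add_le_add b1 b2)) (abs_nonneg _) (by norm_num)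
      _ = 2 * (4 * n + 8) * uu z := by ring
  have h2 : ∀ a : J n, |∑ b, Sg s₁ s₂ a b z * (D a (D b uu) z +
      ((n : ℝ) - 1) * xc a z * D b uu z)| ≤ 2 * n * (2 * (4 * n + 8) * uu z) := by
    intro a
    have := abs_sum_le (hterm a)
    rwa [card_J] at this
  have h3 := abs_sum_le h2
  rw [card_J] at h3
  unfold Lt
  calc _ ≤ _ := h3
    _ = _ := by ring

/-! ### The commutator form -/

/-- `2 Γ(f, Γ(u, f)) - Γ(u, Γ(f, f))`. -/
def Gq (s₁ s₂ : MF n) (f : VV n → ℝ) (z : VV n) : ℝ :=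
  2 * Gt s₁ s₂ f (Gt s₁ s₂ uu f) z - Gt s₁ s₂ uu (Gt s₁ s₂ f f) z

lemma D_Gt (h₁ : TS n 3 ε s₁) (h₂ : TS n 3 ε s₂) {f h : VV n → ℝ} (hf : SU f) (hh : SU h)
    {z : VV n} (hz : z ∈ Un n) (b : J n) :
    D b (Gt s₁ s₂ f h) z = ∑ c, ∑ d, (D b (Sg s₁ s₂ c d) z * D c f z * D d h z +
      Sg s₁ s₂ c d z * D b (D c f) z * D d h z + Sg s₁ s₂ c d z * D c f z * D b (D d h) z) := by
  unfold Gt
  have hs : ∀ c d, SU (fun z => Sg s₁ s₂ c d z * D c f z * D d h z) := fun c d =>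
    ((su_Sg h₁ h₂ c d).mul (su_D hf c)).mul (su_D hh d)
  rw [D_sum _ (fun c => ContDiffOn.sum fun d _ => hs c d) hz]
  refine Finset.sum_congr rfl fun c _ => ?_
  rw [D_sum _ (fun d => hs c d) hz]
  refine Finset.sum_congr rfl fun d _ => ?_
  rw [D_mul ((su_Sg h₁ h₂ c d).mul (su_D hf c)) (su_D hh d) hz,
    D_mul (su_Sg h₁ h₂ c d) (su_D hf c) hz]
  ring

end

/-- Algebra of the commutator form. -/
lemma alg_comm {I : Type*} [Fintype I] (S : I → I → ℝ) (hS : ∀ a b, S a b = S b a)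
    (T : I → I → I → ℝ) (u f : I → ℝ) (U E : I → I → ℝ) :
    2 * ∑ a, ∑ b, S a b * f a * (∑ c, ∑ d, (T b c d * u c * f d + S c d * U b c * f d +
        S c d * u c * E b d)) -
      ∑ a, ∑ b, S a b * u a * (∑ c, ∑ d, (T b c d * f c * f d + S c d * E b c * f d +
        S c d * f c * E b d)) =
    ∑ b, ∑ c, ∑ d, (2 * (∑ a, S a b * f a) * T b c d * u c * f d -
        (∑ a, S a b * u a) * T b c d * f c * f d) +
      2 * ∑ b, ∑ c, (∑ a, S a b * f a) * U b c * (∑ a, S a c * f a) +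
      2 * ∑ b, ∑ d, (∑ a, S a b * f a) * (∑ a, S a d * u a) * (E b d - E d b) := by
  set p : I → ℝ := fun b => ∑ a, S a b * f a with hp
  set q : I → ℝ := fun b => ∑ a, S a b * u a with hq
  have e1 : ∀ X : I → ℝ, ∑ a, ∑ b, S a b * f a * X b = ∑ b, p b * X b := by
    intro X
    rw [Finset.sum_comm]
    refine Finset.sum_congr rfl fun b _ => ?_
    rw [hp, Finset.sum_mul]
  have e2 : ∀ X : I → ℝ, ∑ a, ∑ b, S a b * u a * X b = ∑ b, q b * X b := by
    intro X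
    rw [Finset.sum_comm]
    refine Finset.sum_congr rfl fun b _ => ?_
    rw [hq, Finset.sum_mul]
  have e3 : ∀ Y : I → ℝ, ∑ c, ∑ d, S c d * Y c * f d = ∑ c, Y c * p c := by
    intro Y
    refine Finset.sum_congr rfl fun c _ => ?_
    rw [hp]
    simp only
    rw [Finset.mul_sum]
    refine Finset.sum_congr rfl fun d _ => ?_
    rw [hS c d]; ring
  have e4 : ∀ Y : I → ℝ, ∑ c, ∑ d, S c d * u c * Y d = ∑ d, q d * Y d := e2
  have e5 : ∀ Y : I → ℝ, ∑ c, ∑ d, S c d * f c * Y d = ∑ d, p d * Y d := e1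
  have l1 : ∑ a, ∑ b, S a b * f a * (∑ c, ∑ d, (T b c d * u c * f d + S c d * U b c * f d +
        S c d * u c * E b d)) =
      ∑ b, ∑ c, ∑ d, p b * T b c d * u c * f d + ∑ b, ∑ c, p b * U b c * p c +
        ∑ b, ∑ d, p b * q d * E b d := by
    rw [e1, ← Finset.sum_add_distrib, ← Finset.sum_add_distrib]
    refine Finset.sum_congr rfl fun b _ => ?_
    have k1 : ∑ c, ∑ d, (T b c d * u c * f d + S c d * U b c * f d + S c d * u c * E b d) =
        ∑ c, ∑ d, T b c d * u c * f d + ∑ c, ∑ d, S c d * U b c * f d +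
          ∑ c, ∑ d, S c d * u c * E b d := by
      simp only [Finset.sum_add_distrib]
    rw [k1, e3 (fun c => U b c), e4 (fun d => E b d), mul_add, mul_add, Finset.mul_sum,
      Finset.mul_sum, Finset.mul_sum]
    congr 1
    · congr 1
      · refine Finset.sum_congr rfl fun c _ => ?_
        rw [Finset.mul_sum]
        exact Finset.sum_congr rfl fun d _ => by ring
      · exact Finset.sum_congr rfl fun c _ => by ring
    · exact Finset.sum_congr rfl fun d _ => by ring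
  have l2 : ∑ a, ∑ b, S a b * u a * (∑ c, ∑ d, (T b c d * f c * f d + S c d * E b c * f d +
        S c d * f c * E b d)) =
      ∑ b, ∑ c, ∑ d, q b * T b c d * f c * f d + 2 * ∑ b, ∑ d, p d * q b * E b d := by
    rw [e2, Finset.mul_sum, ← Finset.sum_add_distrib]
    refine Finset.sum_congr rfl fun b _ => ?_
    have k1 : ∑ c, ∑ d, (T b c d * f c * f d + S c d * E b c * f d + S c d * f c * E b d) =
        ∑ c, ∑ d, T b c d * f c * f d + ∑ c, ∑ d, S c d * E b c * f d +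
          ∑ c, ∑ d, S c d * f c * E b d := by
      simp only [Finset.sum_add_distrib]
    rw [k1, e3 (fun c => E b c), e5 (fun d => E b d), mul_add, mul_add, Finset.mul_sum,
      Finset.mul_sum, Finset.mul_sum, add_assoc, Finset.mul_sum, ← Finset.sum_add_distrib]
    congr 1
    · refine Finset.sum_congr rfl fun c _ => ?_
      rw [Finset.mul_sum]
      exact Finset.sum_congr rfl fun d _ => by ring
    · exact Finset.sum_congr rfl fun d _ => by ring
  have l3 : ∑ b, ∑ d, p d * q b * E b d = ∑ b, ∑ d, p b * q d * E d b := by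
    rw [Finset.sum_comm]
  rw [l1, l2, l3]
  have r1 : ∑ b, ∑ c, ∑ d, (2 * p b * T b c d * u c * f d - q b * T b c d * f c * f d) =
      2 * ∑ b, ∑ c, ∑ d, p b * T b c d * u c * f d - ∑ b, ∑ c, ∑ d, q b * T b c d * f c * f d := by
    simp only [Finset.sum_sub_distrib, Finset.mul_sum]
    congr 1
    refine Finset.sum_congr rfl fun b _ => Finset.sum_congr rfl fun c _ =>
      Finset.sum_congr rfl fun d _ => ?_
    ring
  have r2 : ∑ b, ∑ d, p b * q d * (E b d - E d b) =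
      ∑ b, ∑ d, p b * q d * E b d - ∑ b, ∑ d, p b * q d * E d b := by
    simp only [mul_sub, Finset.sum_sub_distrib]
  rw [r1, r2]
  ring

section

variable {ε : ℝ} {s₁ s₂ : MF n}

/-- The commutator form is bounded by `u |∇f|²`. -/
theorem Gq_le (h₁ : TS n 3 ε s₁) (h₂ : TS n 3 ε s₂) (h0 : 0 ≤ ε) (h1 : ε ≤ 1)
    {f : VV n → ℝ} (hf : SU f) {z : VV n} (hz : z ∈ Un n) :
    |Gq s₁ s₂ f z| ≤ (2 * n) ^ 4 * (44 + 8 * (2 * n + 6)) * uu z * g2 f z := by
  have hu := one_le_uu hz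
  have hn : (0 : ℝ) ≤ n := Nat.cast_nonneg n
  set F : ℝ := √(g2 f z) with hF
  have hF0 : 0 ≤ F := Real.sqrt_nonneg _
  have hFF : F ^ 2 = g2 f z := Real.sq_sqrt (g2_nonneg _ _)
  have hfa : ∀ a, |D a f z| ≤ F := fun a => by
    refine abs_le_of_sq_le_sq ?_ hF0
    rw [hFF]
    exact D_sq_le f z a
  have e0 : Gq s₁ s₂ f z = 2 * ∑ a, ∑ b, Sg s₁ s₂ a b z * D a f z *
      D b (Gt s₁ s₂ uu f) z - ∑ a, ∑ b, Sg s₁ s₂ a b z * D a uu z *
      D b (Gt s₁ s₂ f f) z := rfl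
  simp only [D_Gt h₁ h₂ su_uu hf hz, D_Gt h₁ h₂ hf hf hz] at e0
  have e := e0.trans (alg_comm (fun a b => Sg s₁ s₂ a b z) (fun a b => Sg_symm h₁ h₂ a b z)
    (fun b c d => D b (Sg s₁ s₂ c d) z) (fun a => D a uu z) (fun a => D a f z)
    (fun b c => D b (D c uu) z) (fun b d => D b (D d f) z))
  rw [e]
  have hN : (0 : ℝ) ≤ 2 * n := by positivity
  have hp : ∀ b : J n, |∑ a, Sg s₁ s₂ a b z * D a f z| ≤ 2 * n * (2 * F) := by
    intro b
    have := abs_sum_le (g := fun a => Sg s₁ s₂ a b z * D a f z) (M := 2 * F) fun a => by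
      rw [abs_mul]
      exact mul_le_mul (Sg_le h₁ h₂ h0 h1 a b z) (hfa a) (abs_nonneg _) (by norm_num)
    rwa [card_J] at this
  have hq : ∀ b : J n, |∑ a, Sg s₁ s₂ a b z * D a uu z| ≤ 2 * n * (2 * (2 * uu z)) := by
    intro b
    have := abs_sum_le (g := fun a => Sg s₁ s₂ a b z * D a uu z) (M := 2 * (2 * uu z))
      fun a => by
      rw [abs_mul]
      exact mul_le_mul (Sg_le h₁ h₂ h0 h1 a b z) (D_uu_le hz a) (abs_nonneg _) (by norm_num)
    rwa [card_J] at this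
  have hT : ∀ b c d : J n, |D b (Sg s₁ s₂ c d) z| ≤ 1 := fun b c d =>
    (D_Sg_le h₁ h₂ h0 c d b hz).trans h1
  have m3 : ∀ {a b c d A B C E : ℝ}, |a| ≤ A → |b| ≤ B → |c| ≤ C → |d| ≤ E → 0 ≤ A → 0 ≤ B →
      0 ≤ C → |a * b * c * d| ≤ A * B * C * E := by
    intro a b c d A B C E ha hb hc hd hA hB hC
    rw [abs_mul, abs_mul, abs_mul]
    exact mul_le_mul (mul_le_mul (mul_le_mul ha hb (abs_nonneg _) hA) hc (abs_nonneg _)
      (mul_nonneg hA hB)) hd (abs_nonneg _) (mul_nonneg (mul_nonneg hA hB) hC)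
  have t1 : ∀ b c d : J n, |2 * (∑ a, Sg s₁ s₂ a b z * D a f z) * D b (Sg s₁ s₂ c d) z *
      D c uu z * D d f z - (∑ a, Sg s₁ s₂ a b z * D a uu z) * D b (Sg s₁ s₂ c d) z *
      D c f z * D d f z| ≤ 2 * n * 12 * uu z * F ^ 2 := by
    intro b c d
    refine (abs_sub _ _).trans ?_
    have k1 : |2 * (∑ a, Sg s₁ s₂ a b z * D a f z) * D b (Sg s₁ s₂ c d) z *
        D c uu z * D d f z| ≤ (2 * (2 * n * (2 * F))) * 1 * (2 * uu z) * F := by
      refine m3 ?_ (hT b c d) (D_uu_le hz c) (hfa d) (by positivity) zero_le_one (by linarith)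
      rw [abs_mul, abs_two]
      exact mul_le_mul_of_nonneg_left (hp b) (by norm_num)
    have k2 : |(∑ a, Sg s₁ s₂ a b z * D a uu z) * D b (Sg s₁ s₂ c d) z *
        D c f z * D d f z| ≤ (2 * n * (2 * (2 * uu z))) * 1 * F * F :=
      m3 (hq b) (hT b c d) (hfa c) (hfa d) (by positivity) zero_le_one hF0
    refine (add_le_add k1 k2).trans (le_of_eq ?_)
    ring
  have s1 : |∑ b, ∑ c, ∑ d, (2 * (∑ a, Sg s₁ s₂ a b z * D a f z) * D b (Sg s₁ s₂ c d) z *
      D c uu z * D d f z - (∑ a, Sg s₁ s₂ a b z * D a uu z) * D b (Sg s₁ s₂ c d) z *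
      D c f z * D d f z)| ≤ 2 * n * (2 * n * (2 * n * (2 * n * 12 * uu z * F ^ 2))) := by
    have k1 := fun b c => abs_sum_le (t1 b c)
    have k2 := fun b => abs_sum_le (k1 b)
    have k3 := abs_sum_le k2
    simpa only [card_J] using k3
  have t2 : ∀ b c : J n, |(∑ a, Sg s₁ s₂ a b z * D a f z) * D b (D c uu) z *
      (∑ a, Sg s₁ s₂ a c z * D a f z)| ≤ (2 * n * (2 * F)) * ((2 * n + 6) * uu z) *
        (2 * n * (2 * F)) := by
    intro b c
    rw [abs_mul, abs_mul]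
    exact mul_le_mul (mul_le_mul (hp b) (DD_uu_le hz b c) (abs_nonneg _) (by positivity))
      (hp c) (abs_nonneg _) (by positivity)
  have s2 : |∑ b, ∑ c, (∑ a, Sg s₁ s₂ a b z * D a f z) * D b (D c uu) z *
      (∑ a, Sg s₁ s₂ a c z * D a f z)| ≤ 2 * n * (2 * n * ((2 * n * (2 * F)) *
        ((2 * n + 6) * uu z) * (2 * n * (2 * F)))) := by
    have k1 := fun b => abs_sum_le (t2 b)
    have k2 := abs_sum_le k1
    simpa only [card_J] using k2
  have t3 : ∀ b d : J n, |(∑ a, Sg s₁ s₂ a b z * D a f z) * (∑ a, Sg s₁ s₂ a d z * D a uu z) *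
      (D b (D d f) z - D d (D b f) z)| ≤ (2 * n * (2 * F)) * (2 * n * (2 * (2 * uu z))) *
        (F + F) := by
    intro b d
    rw [abs_mul, abs_mul]
    refine mul_le_mul (mul_le_mul (hp b) (hq d) (abs_nonneg _) (by positivity))
      ((D_comm_le hf hz b d).trans (add_le_add (hfa b) (hfa d))) (abs_nonneg _) (by positivity)
  have s3 : |∑ b, ∑ d, (∑ a, Sg s₁ s₂ a b z * D a f z) * (∑ a, Sg s₁ s₂ a d z * D a uu z) *
      (D b (D d f) z - D d (D b f) z)| ≤ 2 * n * (2 * n * ((2 * n * (2 * F)) *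
        (2 * n * (2 * (2 * uu z))) * (F + F))) := by
    have k1 := fun b => abs_sum_le (t3 b)
    have k2 := abs_sum_le k1
    simpa only [card_J] using k2
  have a1 : ∀ x y w : ℝ, |x + 2 * y + 2 * w| ≤ |x| + 2 * |y| + 2 * |w| := by
    intro x y w
    calc |x + 2 * y + 2 * w| ≤ |x + 2 * y| + |2 * w| := abs_add_le _ _
      _ ≤ (|x| + |2 * y|) + |2 * w| := by gcongr; exact abs_add_le _ _
      _ = |x| + 2 * |y| + 2 * |w| := by rw [abs_mul, abs_mul, abs_two]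
  refine (a1 _ _ _).trans ?_
  refine (add_le_add (add_le_add s1 (mul_le_mul_of_nonneg_left s2 (by norm_num)))
    (mul_le_mul_of_nonneg_left s3 (by norm_num))).trans (le_of_eq ?_)
  rw [← hFF]
  ring

end

end Vale.Agent.P088.HY.N2
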