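import Vale.Agent.P088.R2.H814.Pt

/-!
# P088, row EN2: control of `c`
-/

open MeasureTheory Set Filter
open scoped ContDiff Matrix Topology

noncomputable section

namespace Vale.Agent.P088.HY.N2

open Vale.Agent.P088.LR

variable {n : ℕ} {ε : ℝ} {s₁ s₂ : MF n}

/-- The constant. -/
def K2 (n : ℕ) : ℝ :=
  1 + 2 * N1.Vc n + (2 * n) ^ 2 * (2 * (4 * n + 8)) + (2 * n) ^ 4 * (44 + 8 * (2 * n + 6))

/-- `P₁ + P₂`. -/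
def Pc (s₁ s₂ : MF n) (τ : ℝ) (c : VV n → ℝ) (z : VV n) : ℝ := Px s₁ τ c z + Py s₂ τ c z

lemma Pc_eq (s₁ s₂ : MF n) (τ : ℝ) (c : VV n → ℝ) (z : VV n) :
    Pc s₁ s₂ τ c z = Lt s₁ s₂ c z + (vp s₁ z.1 + vp s₂ z.2) * c z +
      τ * (2 * Gt s₁ s₂ uu c z + Lt s₁ s₂ uu z * c z) + τ ^ 2 * Gt s₁ s₂ uu uu z * c z := by
  unfold Pc
  rw [N1.Px_eq, N1.Py_eq, Gt_eq, Gt_eq, Lt_eq, Lt_eq]
  ring

/-! ### Test functions and null forms -/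

/-- The functions. -/
def fa (τ : ℝ) (c : VV n → ℝ) (z : VV n) : ℝ := τ ^ 3 * (uu z * ps z ^ 2) * c z ^ 2

/-- The functions. -/
def fq (τ : ℝ) (c : VV n → ℝ) (z : VV n) : ℝ := τ * c z ^ 2

/-- The functions. -/
def fk (τ : ℝ) (c : VV n → ℝ) (z : VV n) : ℝ := τ * ps z * g2 c z

/-- The functions. -/
def fh (τ : ℝ) (c : VV n → ℝ) (z : VV n) : ℝ := τ * Hm c z

/-- The functions. -/
def fy (s₁ s₂ : MF n) (τ : ℝ) (c : VV n → ℝ) (z : VV n) : ℝ :=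
  τ * (ww z * Gt s₁ s₂ uu c z ^ 2)

/-- The functions. -/
def fm (τ : ℝ) (c : VV n → ℝ) (z : VV n) : ℝ := τ * uu z * c z ^ 2

/-- The functions. -/
def fl (τ : ℝ) (c : VV n → ℝ) (z : VV n) : ℝ := τ ^ 2 * (uu z * ps z) * c z ^ 2

/-- The functions. -/
def fP (s₁ s₂ : MF n) (τ : ℝ) (c : VV n → ℝ) (z : VV n) : ℝ := Pc s₁ s₂ τ c z ^ 2

lemma tf_fa {c : VV n → ℝ} (hc : TF (Un n) c) (τ : ℝ) : TF (Un n) (fa τ c) :=
  hc.pow2.smul ((su_const _).mul (su_uu.mul (N1.su_ps.pow 2)))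

lemma tf_fq {c : VV n → ℝ} (hc : TF (Un n) c) (τ : ℝ) : TF (Un n) (fq τ c) :=
  hc.pow2.smul (su_const _)

lemma tf_g2 {c : VV n → ℝ} (hc : TF (Un n) c) : TF (Un n) (g2 c) :=
  hc.of_su (N1.su_g2 hc.su) fun _ hz => N1.g2_off hz

lemma tf_fk {c : VV n → ℝ} (hc : TF (Un n) c) (τ : ℝ) : TF (Un n) (fk τ c) :=
  (tf_g2 hc).smul ((su_const _).mul N1.su_ps)

lemma tf_fh {c : VV n → ℝ} (hc : TF (Un n) c) (τ : ℝ) : TF (Un n) (fh τ c) := by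
  have h1 : TF (Un n) (cr c) := hc.of_su (N1.su_cr hc.su) fun _ hz => N1.cr_off hz
  exact (((tf_g2 hc).smul su_uu).sub (h1.const_mul 2)).const_mul τ

lemma tf_fy (h₁ : TS n 3 ε s₁) (h₂ : TS n 3 ε s₂) {c : VV n → ℝ} (hc : TF (Un n) c) (τ : ℝ) :
    TF (Un n) (fy s₁ s₂ τ c) :=
  ((tf_Gt' h₁ h₂ su_uu hc).pow2.smul su_ww).const_mul τ

lemma tf_fm {c : VV n → ℝ} (hc : TF (Un n) c) (τ : ℝ) : TF (Un n) (fm τ c) :=
  hc.pow2.smul ((su_const _).mul su_uu)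

lemma tf_fl {c : VV n → ℝ} (hc : TF (Un n) c) (τ : ℝ) : TF (Un n) (fl τ c) :=
  hc.pow2.smul ((su_const _).mul (su_uu.mul N1.su_ps))

lemma tf_fP (h₁ : TS n 3 ε s₁) (h₂ : TS n 3 ε s₂) {c : VV n → ℝ} (hc : TF (Un n) c) (τ : ℝ) :
    TF (Un n) (fP s₁ s₂ τ c) :=
  ((N1.tf_Px h₁.sm τ hc).add (N1.tf_Py h₂.sm τ hc)).pow2

/-- `c²`. -/
def cc (c : VV n → ℝ) (z : VV n) : ℝ := c z * c z

lemma tf_cc {c : VV n → ℝ} (hc : TF (Un n) c) : TF (Un n) (cc c) := hc.mul hc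

/-- `ψ c`. -/
def pc (c : VV n → ℝ) (z : VV n) : ℝ := ps z * c z

/-- `w Γ(u, c)`. -/
def wY (s₁ s₂ : MF n) (c : VV n → ℝ) (z : VV n) : ℝ := ww z * Gt s₁ s₂ uu c z

/-- `w Γ(c, c)`. -/
def wG (s₁ s₂ : MF n) (c : VV n → ℝ) (z : VV n) : ℝ := ww z * Gt s₁ s₂ c c z

/-- `F c²`. -/
def Fcc (s₁ s₂ : MF n) (c : VV n → ℝ) (z : VV n) : ℝ := Gt s₁ s₂ uu uu z * cc c z

/-- `w F c²`. -/
def wF (s₁ s₂ : MF n) (c : VV n → ℝ) (z : VV n) : ℝ := ww z * Fcc s₁ s₂ c z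

lemma tf_pc {c : VV n → ℝ} (hc : TF (Un n) c) : TF (Un n) (pc c) := hc.smul N1.su_ps

lemma tf_wY (h₁ : TS n 3 ε s₁) (h₂ : TS n 3 ε s₂) {c : VV n → ℝ} (hc : TF (Un n) c) :
    TF (Un n) (wY s₁ s₂ c) := (tf_Gt' h₁ h₂ su_uu hc).smul su_ww

lemma tf_wG (h₁ : TS n 3 ε s₁) (h₂ : TS n 3 ε s₂) {c : VV n → ℝ} (hc : TF (Un n) c) :
    TF (Un n) (wG s₁ s₂ c) := (tf_Gt' h₁ h₂ hc.su hc).smul su_ww

lemma tf_Fcc (h₁ : TS n 3 ε s₁) (h₂ : TS n 3 ε s₂) {c : VV n → ℝ} (hc : TF (Un n) c) :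
    TF (Un n) (Fcc s₁ s₂ c) := (tf_cc hc).smul (su_Gt h₁ h₂ su_uu su_uu)

lemma tf_wF (h₁ : TS n 3 ε s₁) (h₂ : TS n 3 ε s₂) {c : VV n → ℝ} (hc : TF (Un n) c) :
    TF (Un n) (wF s₁ s₂ c) := (tf_Fcc h₁ h₂ hc).smul su_ww

/-! ### The identities -/

lemma id0 (h₁ : TS n 3 ε s₁) (h₂ : TS n 3 ε s₂) {c : VV n → ℝ} (hc : SU c) (τ : ℝ) {z : VV n}
    (hz : z ∈ Un n) : c z * Pc s₁ s₂ τ c z = nA s₁ s₂ c c z - Gt s₁ s₂ c c z +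
      (vp s₁ z.1 + vp s₂ z.2) * c z ^ 2 + τ * nA s₁ s₂ (cc c) uu z +
      τ ^ 2 * Gt s₁ s₂ uu uu z * c z ^ 2 := by
  have e : Gt s₁ s₂ (cc c) uu z = c z * Gt s₁ s₂ c uu z + c z * Gt s₁ s₂ c uu z :=
    Gt_mul_left hc hc hz
  unfold nA
  rw [e, Pc_eq, Gt_comm h₁ h₂ c uu]
  unfold cc
  ring

lemma id1 (h₁ : TS n 3 ε s₁) (h₂ : TS n 3 ε s₂) {c : VV n → ℝ} (hc : SU c) (τ : ℝ) {z : VV n}
    (hz : z ∈ Un n) : τ * ps z * (c z * Pc s₁ s₂ τ c z) = -(τ * ps z * Gt s₁ s₂ c c z) -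
      τ * (1 + ww z ^ 2) * (c z * Gt s₁ s₂ uu c z) +
      τ * ps z * (vp s₁ z.1 + vp s₂ z.2) * c z ^ 2 -
      τ ^ 2 * (1 + ww z ^ 2) * Gt s₁ s₂ uu uu z * c z ^ 2 +
      τ ^ 3 * ps z * Gt s₁ s₂ uu uu z * c z ^ 2 + τ * nA s₁ s₂ (pc c) c z +
      τ ^ 2 * nA s₁ s₂ (pc (cc c)) uu z := by
  have hcc : SU (cc c) := hc.mul hc
  have e1 : Gt s₁ s₂ (cc c) uu z = c z * Gt s₁ s₂ c uu z + c z * Gt s₁ s₂ c uu z :=
    Gt_mul_left hc hc hz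
  have e2 : Gt s₁ s₂ (pc (cc c)) uu z = ps z * Gt s₁ s₂ (cc c) uu z + cc c z * Gt s₁ s₂ ps uu z :=
    Gt_mul_left N1.su_ps hcc hz
  have e3 : Gt s₁ s₂ (pc c) c z = ps z * Gt s₁ s₂ c c z + c z * Gt s₁ s₂ ps c z :=
    Gt_mul_left N1.su_ps hc hz
  unfold nA
  rw [e2, e1, e3, Pc_eq, Gt_comm h₁ h₂ c uu, Gt_ps hz, Gt_ps hz]
  unfold pc cc
  ring

lemma id2 (h₁ : TS n 3 ε s₁) (h₂ : TS n 3 ε s₂) {c : VV n → ℝ} (hc : SU c) (τ : ℝ) {z : VV n}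
    (hz : z ∈ Un n) : ww z * Gt s₁ s₂ uu c z * Pc s₁ s₂ τ c z = nA s₁ s₂ (wY s₁ s₂ c) c z -
      1 / 2 * nA s₁ s₂ (wG s₁ s₂ c) uu z + 1 / 2 * τ ^ 2 * nA s₁ s₂ (wF s₁ s₂ c) uu z -
      1 / 2 * ww z * Gq s₁ s₂ c z + 1 / 2 * ww z * Lt s₁ s₂ uu z * Gt s₁ s₂ c c z -
      1 / 2 * ww z ^ 2 * Gt s₁ s₂ uu uu z * Gt s₁ s₂ c c z + ww z ^ 2 * Gt s₁ s₂ uu c z ^ 2 +
      ww z * Gt s₁ s₂ uu c z * (vp s₁ z.1 + vp s₂ z.2) * c z +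
      2 * τ * (ww z * Gt s₁ s₂ uu c z ^ 2) +
      τ * ww z * Lt s₁ s₂ uu z * c z * Gt s₁ s₂ uu c z -
      1 / 2 * τ ^ 2 * (ww z * Lt s₁ s₂ uu z * Gt s₁ s₂ uu uu z + ww z * Gq s₁ s₂ uu z -
        ww z ^ 2 * Gt s₁ s₂ uu uu z ^ 2) * c z ^ 2 := by
  have hcc : SU (cc c) := hc.mul hc
  have sY : SU (Gt s₁ s₂ uu c) := su_Gt h₁ h₂ su_uu hc
  have sG : SU (Gt s₁ s₂ c c) := su_Gt h₁ h₂ hc hc
  have sF : SU (Gt s₁ s₂ uu uu) := su_Gt h₁ h₂ su_uu su_uu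
  have sFcc : SU (Fcc s₁ s₂ c) := sF.mul hcc
  have e1 : Gt s₁ s₂ (cc c) uu z = c z * Gt s₁ s₂ c uu z + c z * Gt s₁ s₂ c uu z :=
    Gt_mul_left hc hc hz
  have e2 : Gt s₁ s₂ (Fcc s₁ s₂ c) uu z = Gt s₁ s₂ uu uu z * Gt s₁ s₂ (cc c) uu z +
      cc c z * Gt s₁ s₂ (Gt s₁ s₂ uu uu) uu z := Gt_mul_left sF hcc hz
  have e3 : Gt s₁ s₂ (wF s₁ s₂ c) uu z = ww z * Gt s₁ s₂ (Fcc s₁ s₂ c) uu z +
      Fcc s₁ s₂ c z * Gt s₁ s₂ ww uu z := Gt_mul_left su_ww sFcc hz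
  have e4 : Gt s₁ s₂ (wG s₁ s₂ c) uu z = ww z * Gt s₁ s₂ (Gt s₁ s₂ c c) uu z +
      Gt s₁ s₂ c c z * Gt s₁ s₂ ww uu z := Gt_mul_left su_ww sG hz
  have e5 : Gt s₁ s₂ (wY s₁ s₂ c) c z = ww z * Gt s₁ s₂ (Gt s₁ s₂ uu c) c z +
      Gt s₁ s₂ uu c z * Gt s₁ s₂ ww c z := Gt_mul_left su_ww sY hz
  unfold nA Gq
  rw [e3, e2, e1, e4, e5, Pc_eq, Gt_comm h₁ h₂ c uu, Gt_ww hz, Gt_ww hz,
    Gt_comm h₁ h₂ (Gt s₁ s₂ uu c) c, Gt_comm h₁ h₂ (Gt s₁ s₂ c c) uu,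
    Gt_comm h₁ h₂ (Gt s₁ s₂ uu uu) uu]
  unfold wY wG wF Fcc cc
  ring

/-! ### Bounds at a point -/

lemma K2_ge (n : ℕ) : 1 ≤ K2 n := by
  unfold K2
  have := N1.Vc_nonneg n
  have h1 : (0 : ℝ) ≤ (2 * n) ^ 2 * (2 * (4 * n + 8)) := by positivity
  have h2 : (0 : ℝ) ≤ (2 * n) ^ 4 * (44 + 8 * (2 * n + 6)) := by positivity
  linarith

lemma v_le (h₁ : TS n 3 ε s₁) (h₂ : TS n 3 ε s₂) (h1 : ε ≤ 1) {z : VV n} (hz : z ∈ Un n) :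
    |vp s₁ z.1 + vp s₂ z.2| ≤ K2 n := by
  have a1 := N1.abs_vp_le h₁ h1 hz.1
  have a2 := N1.abs_vp_le h₂ h1 hz.2
  have a3 := abs_add_le (vp s₁ z.1) (vp s₂ z.2)
  unfold K2
  have h1 : (0 : ℝ) ≤ (2 * n) ^ 2 * (2 * (4 * n + 8)) := by positivity
  have h2 : (0 : ℝ) ≤ (2 * n) ^ 4 * (44 + 8 * (2 * n + 6)) := by positivity
  linarith

lemma k_le (h₁ : TS n 3 ε s₁) (h₂ : TS n 3 ε s₂) (h0 : 0 ≤ ε) (h1 : ε ≤ 1) {z : VV n}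
    (hz : z ∈ Un n) : |Lt s₁ s₂ uu z| ≤ K2 n * uu z := by
  refine (Lt_uu_le h₁ h₂ h0 h1 hz).trans ?_
  have hu := one_le_uu hz
  have := N1.Vc_nonneg n
  have h2 : (0 : ℝ) ≤ (2 * n) ^ 4 * (44 + 8 * (2 * n + 6)) := by positivity
  refine mul_le_mul_of_nonneg_right ?_ (by linarith)
  unfold K2
  linarith

lemma q_le (h₁ : TS n 3 ε s₁) (h₂ : TS n 3 ε s₂) (h0 : 0 ≤ ε) (h1 : ε ≤ 1) {f : VV n → ℝ}
    (hf : SU f) {z : VV n} (hz : z ∈ Un n) : |Gq s₁ s₂ f z| ≤ K2 n * uu z * g2 f z := by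
  refine (Gq_le h₁ h₂ h0 h1 hf hz).trans ?_
  have hu := one_le_uu hz
  have := N1.Vc_nonneg n
  have h2 : (0 : ℝ) ≤ (2 * n) ^ 2 * (2 * (4 * n + 8)) := by positivity
  refine mul_le_mul_of_nonneg_right ?_ (g2_nonneg _ _)
  refine mul_le_mul_of_nonneg_right ?_ (by linarith)
  unfold K2
  linarith

lemma F_bd (h₁ : TS n 3 ε s₁) (h₂ : TS n 3 ε s₂) (h0 : 0 ≤ ε) (h3 : 2 * n * ε ≤ 1 / 2)
    {z : VV n} (hz : z ∈ Un n) :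
    uu z * ps z ≤ Gt s₁ s₂ uu uu z ∧ Gt s₁ s₂ uu uu z ≤ 3 * (uu z * ps z) := by
  have h := Gt_self_sub h₁ h₂ h0 uu z
  have e := g2_uu hz
  have e2 := N1.F_eq hz
  have hg := g2_nonneg (uu : VV n → ℝ) z
  have h4 : 2 * n * ε * g2 uu z ≤ 1 / 2 * g2 uu z := mul_le_mul_of_nonneg_right h3 hg
  have h5 := abs_le.1 (h.trans h4)
  rw [e] at h5
  rw [e2]
  constructor <;> linarith [h5.1, h5.2]

lemma g_bd (h₁ : TS n 3 ε s₁) (h₂ : TS n 3 ε s₂) (h0 : 0 ≤ ε) (h3 : 2 * n * ε ≤ 1 / 2)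
    (c : VV n → ℝ) (z : VV n) :
    1 / 2 * g2 c z ≤ Gt s₁ s₂ c c z ∧ Gt s₁ s₂ c c z ≤ 2 * g2 c z := by
  have h := Gt_self_sub h₁ h₂ h0 c z
  have hg := g2_nonneg c z
  have h4 : 2 * n * ε * g2 c z ≤ 1 / 2 * g2 c z := mul_le_mul_of_nonneg_right h3 hg
  have h5 := abs_le.1 (h.trans h4)
  constructor <;> linarith [h5.1, h5.2]

/-! ### The integrated relations -/

lemma rel0 (h₁ : TS n 3 ε s₁) (h₂ : TS n 3 ε s₂) (h0 : 0 ≤ ε) (h1 : ε ≤ 1)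
    (h3 : 2 * n * ε ≤ 1 / 2) {c : VV n → ℝ} (hc : TF (Un n) c) {τ : ℝ} (hτ : 1 ≤ τ) :
    1 / 2 * EI (g2 c) ≤ 1 / 2 * EI (fP s₁ s₂ τ c) + (K2 n + 1 / 2) * EI (fq τ c) +
      3 * EI (fl τ c) := by
  have h := EI_lin [(1 / 2, fP s₁ s₂ τ c), (K2 n + 1 / 2, fq τ c), (3, fl τ c),
    (1, nA s₁ s₂ c c), (τ, nA s₁ s₂ (cc c) uu), (-(1 / 2), g2 c)]
    ⟨tf_fP h₁ h₂ hc τ, tf_fq hc τ, tf_fl hc τ, tf_nA h₁ h₂ hc.su hc,
      tf_nA h₁ h₂ su_uu (tf_cc hc), tf_g2 hc⟩ (fun z hz => by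
      have := alg0 (id0 h₁ h₂ hc.su τ hz) (v_le h₁ h₂ h1 hz) hτ
        (F_bd h₁ h₂ h0 h3 hz).2 (g_bd h₁ h₂ h0 h3 c z).1
      simp only [List.map_cons, List.map_nil, List.sum_cons, List.sum_nil]
      unfold fP fq fl
      linarith)
  simp only [List.map_cons, List.map_nil, List.sum_cons, List.sum_nil] at h
  rw [EI_nA h₁ h₂ hc.su hc, EI_nA h₁ h₂ su_uu (tf_cc hc)] at h
  linarith

lemma rel1 (h₁ : TS n 3 ε s₁) (h₂ : TS n 3 ε s₂) (h0 : 0 ≤ ε) (h1 : ε ≤ 1)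
    (h3 : 2 * n * ε ≤ 1 / 2) {c : VV n → ℝ} (hc : TF (Un n) c) {τ : ℝ} (hτ : 1 ≤ τ) :
    EI (fa τ c) ≤ 2 * EI (fk τ c) + EI (fy s₁ s₂ τ c) + (1 + K2 n) * EI (fm τ c) +
      7 * EI (fl τ c) + 1 / 2 * EI (fP s₁ s₂ τ c) := by
  have h := EI_lin [(2, fk τ c), (1, fy s₁ s₂ τ c), (1 + K2 n, fm τ c), (7, fl τ c),
    (1 / 2, fP s₁ s₂ τ c), (-1, fa τ c), (-τ, nA s₁ s₂ (pc c) c),
    (-τ ^ 2, nA s₁ s₂ (pc (cc c)) uu)]
    ⟨tf_fk hc τ, tf_fy h₁ h₂ hc τ, tf_fm hc τ, tf_fl hc τ, tf_fP h₁ h₂ hc τ, tf_fa hc τ,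
      tf_nA h₁ h₂ hc.su (tf_pc hc), tf_nA h₁ h₂ su_uu (tf_pc (tf_cc hc))⟩ (fun z hz => by
      have := alg1 (id1 h₁ h₂ hc.su τ hz) (v_le h₁ h₂ h1 hz) hτ (N1.ps_nonneg hz)
        (one_le_uu hz) (ww_mul hz) (ps_eq z) (F_bd h₁ h₂ h0 h3 hz).1
        (F_bd h₁ h₂ h0 h3 hz).2 (g_bd h₁ h₂ h0 h3 c z).2
      simp only [List.map_cons, List.map_nil, List.sum_cons, List.sum_nil]
      unfold fP fk fl fy fm fa
      linarith)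
  simp only [List.map_cons, List.map_nil, List.sum_cons, List.sum_nil] at h
  rw [EI_nA h₁ h₂ hc.su (tf_pc hc), EI_nA h₁ h₂ su_uu (tf_pc (tf_cc hc))] at h
  linarith

lemma rel2 (h₁ : TS n 3 ε s₁) (h₂ : TS n 3 ε s₂) (h0 : 0 ≤ ε) (h1 : ε ≤ 1)
    (h3 : 2 * n * ε ≤ 1 / 2) {c : VV n → ℝ} (hc : TF (Un n) c) {τ : ℝ} (hτ : 1 ≤ τ) :
    EI (fy s₁ s₂ τ c) ≤ EI (fP s₁ s₂ τ c) + (3 * K2 n + 6) * EI (g2 c) +
      K2 n ^ 2 * EI (fq τ c) + K2 n ^ 2 * EI (fm τ c) + 5 * K2 n * EI (fl τ c) := by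
  have h := EI_lin [(1, fP s₁ s₂ τ c), (3 * K2 n + 6, g2 c), (K2 n ^ 2, fq τ c),
    (K2 n ^ 2, fm τ c), (5 * K2 n, fl τ c), (-1, fy s₁ s₂ τ c),
    (-2, nA s₁ s₂ (wY s₁ s₂ c) c), (1, nA s₁ s₂ (wG s₁ s₂ c) uu),
    (-τ ^ 2, nA s₁ s₂ (wF s₁ s₂ c) uu)]
    ⟨tf_fP h₁ h₂ hc τ, tf_g2 hc, tf_fq hc τ, tf_fm hc τ, tf_fl hc τ, tf_fy h₁ h₂ hc τ,
      tf_nA h₁ h₂ hc.su (tf_wY h₁ h₂ hc), tf_nA h₁ h₂ su_uu (tf_wG h₁ h₂ hc),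
      tf_nA h₁ h₂ su_uu (tf_wF h₁ h₂ hc)⟩ (fun z hz => by
      have eQ : g2 uu z = 2 * (uu z * ps z) := by rw [g2_uu hz, N1.F_eq hz]
      have hU : 0 ≤ uu z * ps z :=
        mul_nonneg (by linarith [one_le_uu hz]) (N1.ps_nonneg hz)
      have hQ := q_le h₁ h₂ h0 h1 (su_uu (n := n)) hz
      rw [eQ] at hQ
      have hg := g2_nonneg c z
      have := alg2 (id2 h₁ h₂ hc.su τ hz) (v_le h₁ h₂ h1 hz) (k_le h₁ h₂ h0 h1 hz)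
        (q_le h₁ h₂ h0 h1 hc.su hz) hQ hτ (N1.ps_nonneg hz)
        (one_le_uu hz) (ww_mul hz) (ps_eq z) (hU.trans (F_bd h₁ h₂ h0 h3 hz).1)
        (F_bd h₁ h₂ h0 h3 hz).2 hg
        (le_trans (by linarith) (g_bd h₁ h₂ h0 h3 c z).1) (g_bd h₁ h₂ h0 h3 c z).2
      simp only [List.map_cons, List.map_nil, List.sum_cons, List.sum_nil]
      unfold fP fq fl fy fm
      linarith)
  simp only [List.map_cons, List.map_nil, List.sum_cons, List.sum_nil] at h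
  rw [EI_nA h₁ h₂ hc.su (tf_wY h₁ h₂ hc), EI_nA h₁ h₂ su_uu (tf_wG h₁ h₂ hc),
    EI_nA h₁ h₂ su_uu (tf_wF h₁ h₂ hc)] at h
  linarith

lemma rel3 (h₁ : TS n 3 ε s₁) (h₂ : TS n 3 ε s₂) (h0 : 0 ≤ ε) (h3 : 2 * n * ε ≤ 1 / 2)
    {c : VV n → ℝ} (hc : TF (Un n) c) {τ : ℝ} (hτ : 1 ≤ τ) :
    EI (fk τ c) ≤ 4 * EI (fh τ c) + 2 * EI (fy s₁ s₂ τ c) := by
  have h := EI_lin [(4, fh τ c), (2, fy s₁ s₂ τ c), (-1, fk τ c)]
    ⟨tf_fh hc τ, tf_fy h₁ h₂ hc τ, tf_fk hc τ⟩ (fun z hz => by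
      have hU : 0 ≤ uu z * ps z :=
        mul_nonneg (by linarith [one_le_uu hz]) (N1.ps_nonneg hz)
      have hg := g2_nonneg c z
      have a1 := Gt_sub_sq h₁ h₂ h0 uu c z
      have a2 : (2 * n * ε) ^ 2 * (g2 uu z * g2 c z) ≤ 1 / 2 * (uu z * ps z * g2 c z) := by
        rw [g2_uu hz, ← N1.F_eq hz]
        have a3 : (2 * n * ε) ^ 2 ≤ 1 / 4 := by
          have : 0 ≤ 2 * (n : ℝ) * ε := by positivity
          nlinarith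
        have a4 : 0 ≤ uu z * ps z * g2 c z := mul_nonneg hU hg
        nlinarith
      have := alg3 (τ := τ) (by linarith) (one_le_uu hz) (ww_mul hz)
        (ps_g2_le c hz) (a1.trans a2)
      simp only [List.map_cons, List.map_nil, List.sum_cons, List.sum_nil]
      unfold fh fy fk
      linarith)
  simp only [List.map_cons, List.map_nil, List.sum_cons, List.sum_nil] at h
  linarith

lemma rel6 {c : VV n → ℝ} (hc : TF (Un n) c) {τ δ M : ℝ} (hτ : 1 ≤ τ) (hδ : 0 < δ)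
    (hM : 1 ≤ 4 * δ * M) : EI (fl τ c) ≤ δ * EI (fa τ c) + M * EI (fm τ c) := by
  have h := EI_lin [(δ, fa τ c), (M, fm τ c), (-1, fl τ c)]
    ⟨tf_fa hc τ, tf_fm hc τ, tf_fl hc τ⟩ (fun z hz => by
      have hu := one_le_uu hz
      have a1 := alg6 (x := τ * ps z) hδ hM
      have a2 : 0 ≤ τ * uu z * c z ^ 2 := by
        have h0 : 0 ≤ uu z := by linarith
        have h1 : 0 ≤ τ := by linarith
        positivity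
      have a3 := mul_nonneg a2 a1
      simp only [List.map_cons, List.map_nil, List.sum_cons, List.sum_nil]
      unfold fa fm fl
      linarith)
  simp only [List.map_cons, List.map_nil, List.sum_cons, List.sum_nil] at h
  linarith

lemma rel7 {c : VV n → ℝ} (hc : TF (Un n) c) {τ : ℝ} (hτ : 1 ≤ τ) :
    EI (fm τ c) ≤ 2 * EI (fq τ c) + (τ ^ 2)⁻¹ * EI (fa τ c) := by
  have hτ0 : 0 < τ := by linarith
  have h := EI_lin [(2, fq τ c), ((τ ^ 2)⁻¹, fa τ c), (-1, fm τ c)]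
    ⟨tf_fq hc τ, tf_fa hc τ, tf_fm hc τ⟩ (fun z hz => by
      have a1 := alg7 (one_le_uu hz) (ww_mul hz) (ps_eq z)
      have a2 : 0 ≤ τ * c z ^ 2 := by positivity
      have a3 := mul_le_mul_of_nonneg_left a1 a2
      have e : (τ ^ 2)⁻¹ * fa τ c z = τ * c z ^ 2 * (uu z * ps z ^ 2) := by
        unfold fa
        field_simp
      simp only [List.map_cons, List.map_nil, List.sum_cons, List.sum_nil]
      rw [e]
      unfold fq fm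
      linarith)
  simp only [List.map_cons, List.map_nil, List.sum_cons, List.sum_nil] at h
  linarith

/-! ### The linear system -/

/-- The first elimination. -/
lemma comb1 {K a q k g h y m l P : ℝ} (hK : 1 ≤ K) (hq : 0 ≤ q) (hg : 0 ≤ g)
    (hm : 0 ≤ m) (hl : 0 ≤ l) (hP : 0 ≤ P)
    (r0 : 1 / 2 * g ≤ 1 / 2 * P + (K + 1 / 2) * q + 3 * l)
    (r1 : a ≤ 2 * k + y + (1 + K) * m + 7 * l + 1 / 2 * P)
    (r2 : y ≤ P + (3 * K + 6) * g + K ^ 2 * q + K ^ 2 * m + 5 * K * l)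
    (r3 : k ≤ 4 * h + 2 * y) :
    g ≤ P + 3 * K * q + 6 * l ∧ (3 * K + 6) * g ≤ 9 * K * g ∧
      a ≤ 8 * h + 51 * K * P + 140 * K ^ 2 * q + 7 * K ^ 2 * m + 302 * K * l := by
  have hK0 : 0 < K := by linarith
  have hK1 : 0 ≤ K - 1 := by linarith
  have KK : 0 ≤ K * (K - 1) := mul_nonneg hK0.le hK1
  have Kq : 0 ≤ (K - 1) * q := mul_nonneg hK1 hq
  have Kg : 0 ≤ (K - 1) * g := mul_nonneg hK1 hg
  have Km : 0 ≤ (K - 1) * m := mul_nonneg hK1 hm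
  have Kl : 0 ≤ (K - 1) * l := mul_nonneg hK1 hl
  have KP : 0 ≤ (K - 1) * P := mul_nonneg hK1 hP
  have KKq : 0 ≤ K * (K - 1) * q := mul_nonneg KK hq
  have KKm : 0 ≤ K * (K - 1) * m := mul_nonneg KK hm
  have g1 : g ≤ P + 3 * K * q + 6 * l := by linarith
  have g2 : (3 * K + 6) * g ≤ 9 * K * g := by linarith
  have g3 : 9 * K * g ≤ 9 * K * (P + 3 * K * q + 6 * l) :=
    mul_le_mul_of_nonneg_left g1 (by linarith)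
  exact ⟨g1, g2, by linarith⟩

/-- The second elimination. -/
lemma comb2 {K a q h m l P B t : ℝ} (hK : 1 ≤ K) (ha : 0 ≤ a)
    (hB : B = 91211 * K ^ 2)
    (a1 : a ≤ 8 * h + 51 * K * P + 140 * K ^ 2 * q + 7 * K ^ 2 * m + 302 * K * l)
    (r6 : l ≤ 1 / (1208 * K) * a + 302 * K * m) (r7 : m ≤ 2 * q + t * a) (ht : t * B ≤ 1 / 4) :
    a ≤ 16 * h + 102 * K * P + (280 * K ^ 2 + 4 * B) * q := by
  have hK0 : 0 < K := by linarith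
  have l1 : 302 * K * l ≤ 1 / 4 * a + (302 * K) ^ 2 * m := by
    have e1 : 302 * K * l ≤ 302 * K * (1 / (1208 * K) * a + 302 * K * m) :=
      mul_le_mul_of_nonneg_left r6 (by positivity)
    have e2 : 302 * K * (1 / (1208 * K) * a + 302 * K * m) = 1 / 4 * a + (302 * K) ^ 2 * m := by
      field_simp
      ring
    linarith
  have hB0 : 0 ≤ B := by rw [hB]; positivity
  have m1 : B * m ≤ 2 * B * q + 1 / 4 * a := by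
    have e1 : B * m ≤ B * (2 * q + t * a) := mul_le_mul_of_nonneg_left r7 hB0
    have e2 : t * B * a ≤ 1 / 4 * a := mul_le_mul_of_nonneg_right ht ha
    linarith
  have e : B * m = 7 * K ^ 2 * m + (302 * K) ^ 2 * m := by rw [hB]; ring
  linarith

lemma comb {K : ℝ} (hK : 1 ≤ K) : ∃ C δ M τ₀ : ℝ, 0 < C ∧ 0 < δ ∧ 1 ≤ 4 * δ * M ∧ 1 ≤ τ₀ ∧
    ∀ τ, τ₀ ≤ τ → ∀ a q k g h y m l P : ℝ, 0 ≤ a → 0 ≤ q → 0 ≤ k → 0 ≤ g → 0 ≤ h → 0 ≤ y →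
    0 ≤ m → 0 ≤ l → 0 ≤ P →
    1 / 2 * g ≤ 1 / 2 * P + (K + 1 / 2) * q + 3 * l →
    a ≤ 2 * k + y + (1 + K) * m + 7 * l + 1 / 2 * P →
    y ≤ P + (3 * K + 6) * g + K ^ 2 * q + K ^ 2 * m + 5 * K * l →
    k ≤ 4 * h + 2 * y → q ≤ 4 * h → l ≤ δ * a + M * m → m ≤ 2 * q + (τ ^ 2)⁻¹ * a →
    a + q + k + g + h ≤ C * (h + P) := by
  have hK0 : 0 < K := by linarith
  obtain ⟨B, hB⟩ : ∃ B : ℝ, B = 91211 * K ^ 2 := ⟨_, rfl⟩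
  have hB0 : 0 < B := by rw [hB]; positivity
  obtain ⟨A, hA⟩ : ∃ A : ℝ, A = 16 + 102 * K + 4 * (280 * K ^ 2 + 4 * B) := ⟨_, rfl⟩
  have hA0 : 0 < A := by rw [hA]; positivity
  obtain ⟨L, hL⟩ : ∃ L : ℝ, L = A + 302 * K * (8 + A) := ⟨_, rfl⟩
  have hL0 : 0 < L := by rw [hL]; positivity
  obtain ⟨G, hG⟩ : ∃ G : ℝ, G = 1 + 12 * K + 6 * L := ⟨_, rfl⟩
  have hG0 : 0 < G := by rw [hG]; positivity
  obtain ⟨Y, hY⟩ : ∃ Y : ℝ, Y = 1 + 9 * K * G + 4 * K ^ 2 + K ^ 2 * (8 + A) + 5 * K * L :=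
    ⟨_, rfl⟩
  have hY0 : 0 < Y := by rw [hY]; positivity
  refine ⟨A + 4 + (4 + 2 * Y) + G + 1, 1 / (1208 * K), 302 * K, 1 + 4 * B, by positivity,
    by positivity, ?_, by linarith, ?_⟩
  · apply le_of_eq
    field_simp
    norm_num
  intro τ hτ a q k g h y m l P ha hq hk hg hh hy hm hl hP r0 r1 r2 r3 r5 r6 r7
  have hτ1 : 1 ≤ τ := by linarith
  have hτ2 : τ ≤ τ ^ 2 := by nlinarith
  have hinv : (τ ^ 2)⁻¹ * B ≤ 1 / 4 := by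
    rw [inv_mul_le_iff₀ (by positivity)]
    linarith
  have hinv1 : (τ ^ 2)⁻¹ ≤ 1 := inv_le_one_of_one_le₀ (by linarith)
  obtain ⟨g1, g3, a1⟩ := comb1 hK hq hg hm hl hP r0 r1 r2 r3
  have a2 := comb2 hK ha hB a1 r6 r7 hinv
  obtain ⟨X, hX⟩ : ∃ X : ℝ, X = h + P := ⟨_, rfl⟩
  have hX0 : 0 ≤ X := by rw [hX]; positivity
  have hhX : h ≤ X := by linarith
  have hPX : P ≤ X := by linarith
  have q2 : q ≤ 4 * X := by linarith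
  have a3 : a ≤ A * X := by
    have e1 : (280 * K ^ 2 + 4 * B) * q ≤ (280 * K ^ 2 + 4 * B) * (4 * X) :=
      mul_le_mul_of_nonneg_left q2 (by positivity)
    have e2 : 102 * K * P ≤ 102 * K * X := mul_le_mul_of_nonneg_left hPX (by positivity)
    rw [hA]
    linarith
  have m2 : m ≤ (8 + A) * X := by
    have : (τ ^ 2)⁻¹ * a ≤ 1 * a := mul_le_mul_of_nonneg_right hinv1 ha
    linarith
  have l2 : l ≤ L * X := by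
    have e1 : 1 / (1208 * K) * a ≤ 1 * a := by
      refine mul_le_mul_of_nonneg_right ?_ ha
      rw [div_le_one (by positivity)]
      linarith
    have e2 : 302 * K * m ≤ 302 * K * ((8 + A) * X) :=
      mul_le_mul_of_nonneg_left m2 (by positivity)
    rw [hL]
    linarith
  have g2 : g ≤ G * X := by
    have e1 : 3 * K * q ≤ 3 * K * (4 * X) := mul_le_mul_of_nonneg_left q2 (by positivity)
    rw [hG]
    linarith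
  have y2 : y ≤ Y * X := by
    have e1 : 9 * K * g ≤ 9 * K * (G * X) := mul_le_mul_of_nonneg_left g2 (by positivity)
    have e2 : K ^ 2 * q ≤ K ^ 2 * (4 * X) := mul_le_mul_of_nonneg_left q2 (by positivity)
    have e3 : K ^ 2 * m ≤ K ^ 2 * ((8 + A) * X) :=
      mul_le_mul_of_nonneg_left m2 (by positivity)
    have e4 : 5 * K * l ≤ 5 * K * (L * X) := mul_le_mul_of_nonneg_left l2 (by positivity)
    rw [hY]
    linarith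
  rw [← hX]
  linarith

end Vale.Agent.P088.HY.N2

namespace Vale.Agent.P088.HY

open Vale.Agent.P088.LR N2

/-- (EN2) control of `c`. -/
theorem rowEN2' : RowEGAP → RowEN2 := by
  intro hG n hn
  have hn0 : (0 : ℝ) ≤ n := Nat.cast_nonneg n
  have hn2 : (2 : ℝ) ≤ n := by exact_mod_cast hn
  obtain ⟨C, δ, M, τ₀, hC, hδ, hM, hτ₀, H⟩ := comb (K2_ge n)
  refine ⟨C, 1 / (4 * (n + 1)), τ₀, hC, by positivity, hτ₀, ?_⟩
  intro s₁ s₂ h₁ h₂ τ hτ c hc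
  have hτ1 : 1 ≤ τ := hτ₀.trans hτ
  have hτ0 : 0 < τ := by linarith
  have h0 : 0 ≤ 1 / (4 * ((n : ℝ) + 1)) := by positivity
  have h1 : 1 / (4 * ((n : ℝ) + 1)) ≤ 1 := by
    rw [div_le_one (by positivity)]
    linarith
  have h3 : 2 * n * (1 / (4 * ((n : ℝ) + 1))) ≤ 1 / 2 := by
    rw [mul_one_div, div_le_div_iff₀ (by positivity) (by norm_num)]
    linarith
  have gap : EI (fq τ c) ≤ 4 * EI (fh τ c) := by
    have a1 := hG n hn c hc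
    have a2 : EI (fq τ c) = τ * EE (fun z => c z ^ 2) := EE_const_mul τ _
    have a3 : EI (fh τ c) = τ * EE (Hm c) := EE_const_mul τ _
    have a4 : 0 ≤ EE (fun z => c z ^ 2) := EE_nonneg fun z _ => sq_nonneg _
    have a5 : EE (fun z => c z ^ 2) ≤ 4 * EE (Hm c) := by
      have b1 : (1 : ℝ) ≤ ((n : ℝ) - 1) ^ 2 := by nlinarith
      have b2 : 0 < 4 / ((n : ℝ) - 1) ^ 2 := by positivity
      have b3 : 0 ≤ EE (Hm c) := by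
        by_contra hcon
        push Not at hcon
        have := mul_neg_of_pos_of_neg b2 hcon
        linarith
      have b4 : 4 / ((n : ℝ) - 1) ^ 2 ≤ 4 := by
        rw [div_le_iff₀ (by positivity)]
        linarith
      exact a1.trans (mul_le_mul_of_nonneg_right b4 b3)
    rw [a2, a3]
    nlinarith
  have uz : ∀ z ∈ Un n, 0 ≤ uu z := fun z hz => by linarith [one_le_uu hz]
  have wz : ∀ z ∈ Un n, 0 ≤ ww z := fun z hz => (w_pos (one_le_uu hz) (ww_mul hz)).le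
  have pz : ∀ z ∈ Un n, 0 ≤ ps z := fun z hz => N1.ps_nonneg hz
  have pa : 0 ≤ EI (fa τ c) := EE_nonneg fun z hz => by
    have := uz z hz
    unfold fa
    positivity
  have pq : 0 ≤ EI (fq τ c) := EE_nonneg fun z hz => by
    unfold fq
    positivity
  have pk : 0 ≤ EI (fk τ c) := EE_nonneg fun z hz => by
    have := pz z hz
    have := N2.g2_nonneg c z
    unfold fk
    positivity
  have pg : 0 ≤ EI (g2 c) := EE_nonneg fun z hz => N2.g2_nonneg c z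
  have py : 0 ≤ EI (fy s₁ s₂ τ c) := EE_nonneg fun z hz => by
    have := wz z hz
    unfold fy
    positivity
  have pm : 0 ≤ EI (fm τ c) := EE_nonneg fun z hz => by
    have := uz z hz
    unfold fm
    positivity
  have pl : 0 ≤ EI (fl τ c) := EE_nonneg fun z hz => by
    have := uz z hz
    have := pz z hz
    unfold fl
    positivity
  have pP : 0 ≤ EI (fP s₁ s₂ τ c) := EE_nonneg fun z hz => sq_nonneg _
  have ph : 0 ≤ EI (fh τ c) := by linarith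
  have key := H τ hτ _ _ _ _ _ _ _ _ _ pa pq pk pg ph py pm pl pP
    (rel0 h₁ h₂ h0 h1 h3 hc hτ1) (rel1 h₁ h₂ h0 h1 h3 hc hτ1) (rel2 h₁ h₂ h0 h1 h3 hc hτ1)
    (rel3 h₁ h₂ h0 h3 hc hτ1) gap (rel6 hc hτ1 hδ hM) (rel7 hc hτ1)
  have e1 : EE (Nc τ c) ≤ EI (fa τ c) + EI (fq τ c) + EI (fk τ c) + EI (g2 c) + EI (fh τ c) := by
    have tf : TF (Un n) (fun z => fa τ c z + fq τ c z + fk τ c z + g2 c z + fh τ c z) :=
      ((((tf_fa hc τ).add (tf_fq hc τ)).add (tf_fk hc τ)).add (tf_g2 hc)).add (tf_fh hc τ)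
    have e2 : EE (Nc τ c) = EE (fun z => fa τ c z + fq τ c z + fk τ c z + g2 c z + fh τ c z) :=
      EE_congr fun z hz => rfl
    rw [e2, EE_add ((((tf_fa hc τ).add (tf_fq hc τ)).add (tf_fk hc τ)).add (tf_g2 hc))
      (tf_fh hc τ), EE_add (((tf_fa hc τ).add (tf_fq hc τ)).add (tf_fk hc τ)) (tf_g2 hc),
      EE_add ((tf_fa hc τ).add (tf_fq hc τ)) (tf_fk hc τ), EE_add (tf_fa hc τ) (tf_fq hc τ)]
    exact le_rfl
  have e3 : EI (fh τ c) = τ * EE (Hm c) := EE_const_mul τ _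
  have e4 : EI (fP s₁ s₂ τ c) = EE (fun z => (Px s₁ τ c z + Py s₂ τ c z) ^ 2) := rfl
  rw [← e3, ← e4]
  exact e1.trans key

/-- (EN2) control of `c`. -/
theorem rowEN2 : RowEGAP → RowEIK → RowEQB → RowEN2 := fun h _ _ => rowEN2' h

end Vale.Agent.P088.HY
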