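import Vale.Agent.P088.R2.H814.Cal2
import Vale.Agent.P088.R2.H537.EN1

/-!
# P088, row EN2: the algebra of `H₋` and the derivative rules
-/

open MeasureTheory Set Filter
open scoped ContDiff Matrix Topology

noncomputable section

namespace Vale.Agent.P088.HY.N2

open Vale.Agent.P088.LR

variable {n : ℕ}

/-! ### The matrix `m` -/

/-- `|m η|² = |η|² + (β · η)²`. -/
lemma sum_m_sq {z : VV n} (hz : z ∈ Un n) (η : Fin n → ℝ) :
    ∑ i, (∑ j, η j * mm i j z) ^ 2 = ∑ j, η j ^ 2 + (∑ j, be j z * η j) ^ 2 := by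
  have h1 := (r1_pos hz).ne'
  have h2 := (r2_pos hz).ne'
  set X : ℝ := ∑ i, z.1 i * η i with hX
  set Y : ℝ := ∑ i, z.2 i * η i with hY
  have hb : ∑ i, be i z * η i = -(r1 z)⁻¹ * X + ((r1 z)⁻¹ + (uu z - 1)) * Y := by
    rw [hX, hY, Finset.mul_sum, Finset.mul_sum, ← Finset.sum_add_distrib]
    refine Finset.sum_congr rfl fun i _ => ?_
    rw [be_lin hz]
    ring
  set b : ℝ := ∑ i, be i z * η i with hb'
  have e1 : ∀ i, ∑ j, η j * mm i j z =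
      -η i + ((Y * (r2 z)⁻¹ + b) * z.1 i + (-(Y * (r2 z)⁻¹)) * z.2 i) := by
    intro i
    have e2 : ∀ j, η j * mm i j z = -(kd i j * η j) +
        ((al i z - (uu z - 1) * z.1 i) * (z.2 j * η j) + z.1 i * (be j z * η j)) := by
      intro j
      rw [mm_eq hz]
      ring
    simp only [e2, Finset.sum_add_distrib, Finset.sum_neg_distrib, ← Finset.mul_sum]
    rw [sum_kd, ← hY, ← hb', al_lin hz]
    ring
  have e3 : ∀ i, (∑ j, η j * mm i j z) ^ 2 = η i ^ 2 +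
      ((-2 * (Y * (r2 z)⁻¹ + b)) * (z.1 i * η i) + (-2 * (-(Y * (r2 z)⁻¹))) * (z.2 i * η i) +
      ((Y * (r2 z)⁻¹ + b) * z.1 i + (-(Y * (r2 z)⁻¹)) * z.2 i) *
      ((Y * (r2 z)⁻¹ + b) * z.1 i + (-(Y * (r2 z)⁻¹)) * z.2 i)) := by
    intro j
    rw [e1]
    ring
  simp only [e3, Finset.sum_add_distrib]
  rw [← Finset.mul_sum, ← Finset.mul_sum, ← hX, ← hY, sum_lin, xy_eq hz, hb]
  field_simp
  ring

/-- `m β = u α`. -/
lemma m_be {z : VV n} (hz : z ∈ Un n) (i : Fin n) :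
    ∑ j, mm i j z * be j z = uu z * al i z := by
  have e1 : Ax i (fun z => ∑ j, be j z * be j z) z = Ax i (fun z => uu z * uu z - 1) z := by
    rw [Ax_eq]
    refine Dr_congr (fun z hz => ?_) hz
    rw [sum_be_sq hz]
    ring
  have e2 : Ax i (fun z => ∑ j, be j z * be j z) z = ∑ j, 2 * (mm i j z * be j z) := by
    rw [Ax_eq, Dr_sum Finset.univ (fun j => (su_be j).mul (su_be j)) hz]
    refine Finset.sum_congr rfl fun j _ => ?_
    rw [Dr_mul (su_be j) (su_be j) hz]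
    have : Dr r1 (Pi.single i 1, 0) (be j) z = mm i j z := rfl
    rw [this]
    ring
  have e3 : Ax i (fun z => uu z * uu z - 1) z = 2 * (uu z * al i z) := by
    rw [Ax_eq, Dr_sub (su_uu.mul su_uu) (su_const 1) hz, Dr_mul su_uu su_uu hz, Dr_const]
    have : Dr r1 (Pi.single i 1, 0) uu z = al i z := rfl
    rw [this]
    ring
  rw [e2, e3, ← Finset.mul_sum] at e1
  linarith

/-- `ψ |∇c|² ≤ 2 H₋ + (α · A c + β · B c)² / (2 u)`. -/
lemma ps_g2_le (c : VV n → ℝ) {z : VV n} (hz : z ∈ Un n) :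
    ps z * g2 c z ≤ 2 * Hm c z + 1 / 2 * (uu z)⁻¹ * (∑ a, D a uu z * D a c z) ^ 2 := by
  have hu := one_le_uu hz
  have hu0 : 0 < uu z := by linarith
  set ξ : Fin n → ℝ := fun i => Ax i c z with hξ
  set η : Fin n → ℝ := fun i => By i c z with hη
  set μ : Fin n → ℝ := fun j => ∑ i, ξ i * mm i j z with hμ
  set ν : Fin n → ℝ := fun i => ∑ j, η j * mm i j z with hν
  set A : ℝ := ∑ i, al i z * ξ i with hA
  set B : ℝ := ∑ i, be i z * η i with hB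
  have hY : ∑ a, D a uu z * D a c z = A + B := by
    rw [Fintype.sum_sum_type]
    rfl
  have h1 : ∑ j, μ j ^ 2 = ∑ i, ξ i ^ 2 + A ^ 2 := N1.sum_mT_sq hz ξ
  have h2 : ∑ i, ν i ^ 2 = ∑ i, η i ^ 2 + B ^ 2 := sum_m_sq hz η
  have hcr : cr c z = ∑ j, μ j * η j := N1.cr_eq c z
  have hcr2 : cr c z = ∑ i, ν i * ξ i := by
    unfold cr
    refine Finset.sum_congr rfl fun i _ => ?_
    rw [hν, Finset.sum_mul]
    refine Finset.sum_congr rfl fun j _ => ?_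
    show ξ i * mm i j z * η j = _
    ring
  have h5 : ∑ j, (uu z * η j - μ j) ^ 2 =
      uu z ^ 2 * ∑ j, η j ^ 2 - 2 * uu z * ∑ j, μ j * η j + ∑ j, μ j ^ 2 := by
    rw [Finset.mul_sum, Finset.mul_sum, ← Finset.sum_sub_distrib, ← Finset.sum_add_distrib]
    exact Finset.sum_congr rfl fun j _ => by ring
  have h6 : ∑ j, (uu z * ξ j - ν j) ^ 2 =
      uu z ^ 2 * ∑ j, ξ j ^ 2 - 2 * uu z * ∑ j, ν j * ξ j + ∑ j, ν j ^ 2 := by
    rw [Finset.mul_sum, Finset.mul_sum, ← Finset.sum_sub_distrib, ← Finset.sum_add_distrib]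
    exact Finset.sum_congr rfl fun j _ => by ring
  have h7 : ∑ j, be j z * (uu z * η j - μ j) = uu z * (B - A) := by
    have e1 : ∑ j, be j z * (uu z * η j - μ j) =
        uu z * ∑ j, be j z * η j - ∑ j, be j z * μ j := by
      rw [Finset.mul_sum, ← Finset.sum_sub_distrib]
      exact Finset.sum_congr rfl fun j _ => by ring
    have e2 : ∑ j, be j z * μ j = uu z * A := by
      have e3 : ∀ j, be j z * μ j = ∑ i, ξ i * (mm i j z * be j z) := by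
        intro j
        rw [hμ, Finset.mul_sum]
        exact Finset.sum_congr rfl fun i _ => by ring
      simp only [e3]
      rw [Finset.sum_comm, hA, Finset.mul_sum]
      refine Finset.sum_congr rfl fun i _ => ?_
      rw [← Finset.mul_sum, m_be hz]
      ring
    rw [e1, e2, ← hB]
    ring
  have h8 : (∑ j, be j z * (uu z * η j - μ j)) ^ 2 ≤
      (∑ j, be j z ^ 2) * ∑ j, (uu z * η j - μ j) ^ 2 := Finset.sum_mul_sq_le_sq_mul_sq _ _ _
  have h9 : ∑ j, be j z ^ 2 = uu z ^ 2 - 1 := by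
    rw [← sum_be_sq hz]
    exact Finset.sum_congr rfl fun i _ => by ring
  set S : ℝ := ∑ j, (uu z * η j - μ j) ^ 2 with hS
  set T : ℝ := ∑ j, (uu z * ξ j - ν j) ^ 2 with hT
  have hS0 : 0 ≤ S := Finset.sum_nonneg fun _ _ => sq_nonneg _
  have hT0 : 0 ≤ T := Finset.sum_nonneg fun _ _ => sq_nonneg _
  rw [h7, h9] at h8
  have h10 : uu z ^ 2 * (B - A) ^ 2 ≤ uu z ^ 2 * S := by nlinarith
  have h11 : (B - A) ^ 2 ≤ S := le_of_mul_le_mul_left h10 (by positivity)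
  have hg : g2 c z = ∑ i, ξ i ^ 2 + ∑ i, η i ^ 2 := rfl
  have hH : Hm c z = uu z * g2 c z - 2 * cr c z := rfl
  have hps := N1.F_eq hz
  rw [hY]
  have key : uu z * (ps z * g2 c z) ≤
      uu z * (2 * Hm c z + 1 / 2 * (uu z)⁻¹ * (A + B) ^ 2) := by
    have e1 : uu z * (2 * Hm c z + 1 / 2 * (uu z)⁻¹ * (A + B) ^ 2) =
        2 * uu z * Hm c z + 1 / 2 * (A + B) ^ 2 := by
      field_simp
    have e2 : uu z * (ps z * g2 c z) = (uu z ^ 2 - 1) * g2 c z := by rw [← hps]; ring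
    rw [e1, e2, hH]
    have e3 : S + T = (uu z ^ 2 + 1) * g2 c z - 4 * uu z * cr c z + A ^ 2 + B ^ 2 := by
      rw [h5, h6, h1, h2, ← hcr, ← hcr2, hg]
      ring
    nlinarith
  exact le_of_mul_le_mul_left key hu0

/-! ### Derivatives of functions of `u` -/

lemma uu_ne {z : VV n} (hz : z ∈ Un n) : uu z ≠ 0 := by
  have := one_le_uu hz
  linarith

/-- `w = 1 / u`. -/
def ww (z : VV n) : ℝ := (uu z)⁻¹

lemma su_ww : SU (ww : VV n → ℝ) := su_uu.inv fun _ hz => uu_ne hz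

lemma ww_mul {z : VV n} (hz : z ∈ Un n) : ww z * uu z = 1 := inv_mul_cancel₀ (uu_ne hz)

lemma ps_eq (z : VV n) : ps z = uu z - ww z := rfl

lemma D_ww {z : VV n} (hz : z ∈ Un n) (a : J n) : D a ww z = -(ww z ^ 2) * D a uu z := by
  have h : D a ww z = -D a uu z / uu z ^ 2 := Dr_inv su_uu hz (uu_ne hz)
  rw [h]
  unfold ww
  field_simp

lemma D_ps {z : VV n} (hz : z ∈ Un n) (a : J n) : D a ps z = (1 + ww z ^ 2) * D a uu z := by
  have h : D a ps z = D a (fun z => uu z - ww z) z := rfl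
  rw [h, D_sub su_uu su_ww hz, D_ww hz]
  ring

section

variable {ε : ℝ} {s₁ s₂ : MF n}

lemma Gt_ww {z : VV n} (hz : z ∈ Un n) (f : VV n → ℝ) :
    Gt s₁ s₂ ww f z = -(ww z ^ 2) * Gt s₁ s₂ uu f z := by
  unfold Gt
  rw [Finset.mul_sum]
  refine Finset.sum_congr rfl fun a _ => ?_
  rw [Finset.mul_sum]
  refine Finset.sum_congr rfl fun b _ => ?_
  rw [D_ww hz]
  ring

lemma Gt_ps {z : VV n} (hz : z ∈ Un n) (f : VV n → ℝ) :
    Gt s₁ s₂ ps f z = (1 + ww z ^ 2) * Gt s₁ s₂ uu f z := by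
  unfold Gt
  rw [Finset.mul_sum]
  refine Finset.sum_congr rfl fun a _ => ?_
  rw [Finset.mul_sum]
  refine Finset.sum_congr rfl fun b _ => ?_
  rw [D_ps hz]
  ring

/-- `h L f + Γ(h, f)`. -/
def nA (s₁ s₂ : MF n) (h f : VV n → ℝ) (z : VV n) : ℝ := h z * Lt s₁ s₂ f z + Gt s₁ s₂ h f z

lemma EI_nA (h₁ : TS n 3 ε s₁) (h₂ : TS n 3 ε s₂) {f h : VV n → ℝ} (hf : SU f)
    (hh : TF (Un n) h) : EI (nA s₁ s₂ h f) = 0 := EI_ibp_l h₁ h₂ hf hh

lemma tf_Gt (h₁ : TS n 3 ε s₁) (h₂ : TS n 3 ε s₂) {f h : VV n → ℝ} (hf : SU f)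
    (hh : TF (Un n) h) : TF (Un n) (Gt s₁ s₂ h f) := by
  unfold Gt
  exact tf_sum _ fun a _ => tf_sum _ fun b _ =>
    ((hh.nD a).nmulS' (su_Sg h₁ h₂ a b)).nmulS (su_D hf b)

lemma tf_Gt' (h₁ : TS n 3 ε s₁) (h₂ : TS n 3 ε s₂) {f h : VV n → ℝ} (hf : SU f)
    (hh : TF (Un n) h) : TF (Un n) (Gt s₁ s₂ f h) := by
  unfold Gt
  exact tf_sum _ fun a _ => tf_sum _ fun b _ =>
    (hh.nD b).nmulS' ((su_Sg h₁ h₂ a b).mul (su_D hf a))

lemma tf_nA (h₁ : TS n 3 ε s₁) (h₂ : TS n 3 ε s₂) {f h : VV n → ℝ} (hf : SU f)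
    (hh : TF (Un n) h) : TF (Un n) (nA s₁ s₂ h f) :=
  (hh.nmulS (su_Lt h₁ h₂ hf)).nadd (tf_Gt h₁ h₂ hf hh)

end

end Vale.Agent.P088.HY.N2
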