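import Vale.Agent.P088.R2.H814.Hm

/-!
# P088, row EN2: the pointwise inequalities
-/

open MeasureTheory Set Filter
open scoped ContDiff Matrix Topology

noncomputable section

namespace Vale.Agent.P088.HY.N2

open Vale.Agent.P088.LR

/-! ### Real inequalities -/

lemma w_pos {u w : ℝ} (hu : 1 ≤ u) (hw : w * u = 1) : 0 < w := by
  by_contra h
  push Not at h
  nlinarith

lemma alg0 {p c v τ F U g G K A B : ℝ}
    (h : c * p = A - g + v * c ^ 2 + τ * B + τ ^ 2 * F * c ^ 2) (hv : |v| ≤ K) (hτ : 1 ≤ τ)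
    (hF : F ≤ 3 * U) (hg : 1 / 2 * G ≤ g) :
    0 ≤ 1 / 2 * p ^ 2 + (K + 1 / 2) * (τ * c ^ 2) + 3 * (τ ^ 2 * U * c ^ 2) + A + τ * B
      - 1 / 2 * G := by
  have hK : 0 ≤ K := (abs_nonneg v).trans hv
  have hv' := abs_le.1 hv
  have h1 : 0 ≤ (p + c) ^ 2 := sq_nonneg _
  have hc : 0 ≤ c ^ 2 := sq_nonneg _
  have h2 : v * c ^ 2 ≤ K * c ^ 2 := mul_le_mul_of_nonneg_right hv'.2 hc
  have h3 : τ ^ 2 * F * c ^ 2 ≤ τ ^ 2 * (3 * U) * c ^ 2 := by gcongr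
  have h4 : (K + 1 / 2) * c ^ 2 ≤ (K + 1 / 2) * (τ * c ^ 2) := by
    have : c ^ 2 ≤ τ * c ^ 2 := le_mul_of_one_le_left hc hτ
    gcongr
  nlinarith

lemma alg1 {p c v τ F g G K A B u w ψ Y : ℝ}
    (h : τ * ψ * (c * p) = -(τ * ψ * g) - τ * (1 + w ^ 2) * (c * Y) + τ * ψ * v * c ^ 2
      - τ ^ 2 * (1 + w ^ 2) * F * c ^ 2 + τ ^ 3 * ψ * F * c ^ 2 + τ * A + τ ^ 2 * B)
    (hv : |v| ≤ K) (hτ : 1 ≤ τ) (hψ : 0 ≤ ψ) (hu : 1 ≤ u) (hw : w * u = 1) (hψu : ψ = u - w)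
    (hF0 : u * ψ ≤ F) (hF : F ≤ 3 * (u * ψ)) (hg : g ≤ 2 * G) :
    0 ≤ 2 * (τ * ψ * G) + τ * (w * Y ^ 2) + (1 + K) * (τ * u * c ^ 2)
      + 7 * (τ ^ 2 * (u * ψ) * c ^ 2) + 1 / 2 * p ^ 2 - τ ^ 3 * (u * ψ ^ 2) * c ^ 2
      - τ * A - τ ^ 2 * B := by
  have hτ0 : 0 ≤ τ := by linarith
  have hw0 : 0 < w := w_pos hu hw
  have hw1 : w ≤ 1 := by nlinarith
  have hc : 0 ≤ c ^ 2 := sq_nonneg _
  have hv' := abs_le.1 hv
  have a1 : 0 ≤ τ * ψ * (2 * G - g) := mul_nonneg (mul_nonneg hτ0 hψ) (by linarith)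
  have a2 : 0 ≤ τ * (w * Y ^ 2 + u * c ^ 2 - (1 + w ^ 2) * (c * Y)) := by
    refine mul_nonneg hτ0 ?_
    have e : w * Y ^ 2 + u * c ^ 2 - (1 + w ^ 2) * (c * Y) =
        (1 + w ^ 2) / 2 * (w * (Y - u * c) ^ 2) + (1 - w ^ 2) / 2 * (w * Y ^ 2 + u * c ^ 2) := by
      have : w * (Y - u * c) ^ 2 = w * Y ^ 2 - 2 * (c * Y) + u * c ^ 2 := by
        have : w * (Y - u * c) ^ 2 = w * Y ^ 2 - 2 * (w * u) * (c * Y) + (w * u) * u * c ^ 2 := by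
          ring
        rw [this, hw]; ring
      rw [this]; ring
    rw [e]
    have : 0 ≤ 1 - w ^ 2 := by nlinarith
    have hu0 : 0 ≤ u := by linarith
    positivity
  have a3 : 0 ≤ τ * ((K * u + ψ * v) * c ^ 2) := by
    refine mul_nonneg hτ0 (mul_nonneg ?_ hc)
    have h1 : ψ ≤ u := by linarith
    have h2 : -(K * ψ) ≤ ψ * v := by nlinarith [hv'.1]
    have hK : 0 ≤ K := (abs_nonneg v).trans hv
    nlinarith
  have a4 : 0 ≤ τ ^ 2 * c ^ 2 * (6 * (u * ψ) - (1 + w ^ 2) * F) := by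
    refine mul_nonneg (by positivity) ?_
    have hF1 : 0 ≤ F := le_trans (mul_nonneg (by linarith) hψ) hF0
    have : w ^ 2 ≤ 1 := by nlinarith
    nlinarith
  have a5 : 0 ≤ (p - τ * ψ * c) ^ 2 := sq_nonneg _
  have a6 : 0 ≤ τ ^ 2 * c ^ 2 * (u * ψ - ψ ^ 2) := by
    refine mul_nonneg (by positivity) ?_
    have : ψ ≤ u := by linarith
    nlinarith
  have a6' : 0 ≤ τ ^ 2 * c ^ 2 * (u * ψ) := by
    have hu0 : 0 ≤ u := by linarith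
    positivity
  have a7 : 0 ≤ τ ^ 3 * ψ * c ^ 2 * (F - u * ψ) := by
    refine mul_nonneg (by positivity) (by linarith)
  nlinarith

lemma alg2 {p c v τ F g G K A B E u w ψ Y κ q Q : ℝ}
    (h : w * Y * p = A - 1 / 2 * B + 1 / 2 * τ ^ 2 * E - 1 / 2 * w * q + 1 / 2 * w * κ * g
      - 1 / 2 * w ^ 2 * F * g + w ^ 2 * Y ^ 2 + w * Y * v * c + 2 * τ * (w * Y ^ 2)
      + τ * w * κ * c * Y - 1 / 2 * τ ^ 2 * (w * κ * F + w * Q - w ^ 2 * F ^ 2) * c ^ 2)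
    (hv : |v| ≤ K) (hκ : |κ| ≤ K * u) (hq : |q| ≤ K * u * G) (hQ : |Q| ≤ K * u * (2 * (u * ψ)))
    (hτ : 1 ≤ τ) (hψ : 0 ≤ ψ) (hu : 1 ≤ u) (hw : w * u = 1) (hψu : ψ = u - w)
    (hF0 : 0 ≤ F) (hF : F ≤ 3 * (u * ψ)) (hG : 0 ≤ G) (hg0 : 0 ≤ g) (hg : g ≤ 2 * G) :
    0 ≤ p ^ 2 + (3 * K + 6) * G + K ^ 2 * (τ * c ^ 2) + K ^ 2 * (τ * u * c ^ 2)
      + 5 * K * (τ ^ 2 * (u * ψ) * c ^ 2) - τ * (w * Y ^ 2) - 2 * A + B - τ ^ 2 * E := by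
  have hτ0 : 0 ≤ τ := by linarith
  have hu0 : 0 ≤ u := by linarith
  have hw0 : 0 < w := w_pos hu hw
  have hw1 : w ≤ 1 := by nlinarith
  have hK : 0 ≤ K := (abs_nonneg v).trans hv
  have hc : 0 ≤ c ^ 2 := sq_nonneg _
  have hY : 0 ≤ Y ^ 2 := sq_nonneg _
  have hU : 0 ≤ u * ψ := mul_nonneg hu0 hψ
  -- `|w q| ≤ K G`
  have b1 : w * q ≤ K * G := by
    have h1 := (abs_le.1 hq).2
    calc w * q ≤ w * (K * u * G) := by gcongr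
      _ = (w * u) * (K * G) := by ring
      _ = K * G := by rw [hw, one_mul]
  have wk : |w * κ| ≤ K := by
    rw [abs_mul, abs_of_pos hw0]
    calc w * |κ| ≤ w * (K * u) := by gcongr
      _ = (w * u) * K := by ring
      _ = K := by rw [hw, one_mul]
  have wk' := abs_le.1 wk
  have b2 : -(2 * K * G) ≤ w * κ * g := by
    have h1 : -(K * g) ≤ w * κ * g := by nlinarith [wk'.1]
    have h2 : K * g ≤ K * (2 * G) := by gcongr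
    linarith
  have b3 : w ^ 2 * F * g ≤ 6 * G := by
    have h1 : w ^ 2 * (u * ψ) ≤ 1 := by
      have : w ^ 2 * (u * ψ) = w * (w * u) * u - (w * u) * w ^ 2 := by rw [hψu]; ring
      rw [this, hw]
      nlinarith
    calc w ^ 2 * F * g ≤ w ^ 2 * (3 * (u * ψ)) * (2 * G) := by gcongr
      _ = 6 * G * (w ^ 2 * (u * ψ)) := by ring
      _ ≤ 6 * G * 1 := by gcongr
      _ = 6 * G := by ring
  have b4 : 0 ≤ τ * (w * Y ^ 2) + K ^ 2 * (τ * c ^ 2) + 2 * (w * Y * v * c) := by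
    have h1 : 0 ≤ w * (Y + v * c) ^ 2 := by positivity
    have h2 : w * Y ^ 2 ≤ τ * (w * Y ^ 2) := le_mul_of_one_le_left (by positivity) hτ
    have h3 : w * (v * c) ^ 2 ≤ K ^ 2 * (τ * c ^ 2) := by
      have h4 : v ^ 2 ≤ K ^ 2 := sq_le_sq' (by linarith [(abs_le.1 hv).1]) (abs_le.1 hv).2
      calc w * (v * c) ^ 2 = w * (v ^ 2 * c ^ 2) := by ring
        _ ≤ 1 * (K ^ 2 * (τ * c ^ 2)) := by
            have : c ^ 2 ≤ τ * c ^ 2 := le_mul_of_one_le_left hc hτ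
            gcongr
        _ = _ := one_mul _
    have e : w * (Y + v * c) ^ 2 = w * Y ^ 2 + 2 * (w * Y * v * c) + w * (v * c) ^ 2 := by ring
    linarith
  have b5 : 0 ≤ τ * (w * Y ^ 2) + K ^ 2 * (τ * u * c ^ 2) + 2 * (τ * w * κ * c * Y) := by
    have h4 : (w * κ) ^ 2 ≤ K ^ 2 := sq_le_sq' (by linarith [wk'.1]) wk'.2
    have h1 : 0 ≤ τ * (w * (Y + u * (w * κ) * c) ^ 2) := by positivity
    have e : w * (Y + u * (w * κ) * c) ^ 2 = w * Y ^ 2 + 2 * (w * κ * c * Y) +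
        u * (w * κ) ^ 2 * c ^ 2 := by
      have : w * (Y + u * (w * κ) * c) ^ 2 = w * Y ^ 2 + 2 * (w * u) * (w * κ * c * Y) +
        (w * u) * u * (w * κ) ^ 2 * c ^ 2 := by ring
      rw [this, hw]; ring
    rw [e] at h1
    have h5 : τ * u * c ^ 2 * (w * κ) ^ 2 ≤ τ * u * c ^ 2 * K ^ 2 :=
      mul_le_mul_of_nonneg_left h4 (by positivity)
    linarith
  have b6 : 0 ≤ (p - w * Y) ^ 2 := sq_nonneg _
  have b7 : τ ^ 2 * c ^ 2 * (w * κ * F) ≤ τ ^ 2 * c ^ 2 * (3 * K * (u * ψ)) := by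
    have : w * κ * F ≤ 3 * K * (u * ψ) := by
      calc w * κ * F ≤ K * F := mul_le_mul_of_nonneg_right wk'.2 hF0
        _ ≤ K * (3 * (u * ψ)) := mul_le_mul_of_nonneg_left hF hK
        _ = _ := by ring
    exact mul_le_mul_of_nonneg_left this (by positivity)
  have b8 : τ ^ 2 * c ^ 2 * (w * Q) ≤ τ ^ 2 * c ^ 2 * (2 * K * (u * ψ)) := by
    have : w * Q ≤ 2 * K * (u * ψ) := by
      calc w * Q ≤ w * (K * u * (2 * (u * ψ))) :=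
            mul_le_mul_of_nonneg_left (abs_le.1 hQ).2 hw0.le
        _ = (w * u) * (2 * K * (u * ψ)) := by ring
        _ = _ := by rw [hw, one_mul]
    exact mul_le_mul_of_nonneg_left this (by positivity)
  have b9 : 0 ≤ τ ^ 2 * c ^ 2 * (w ^ 2 * F ^ 2) := by positivity
  have b10 : 0 ≤ w ^ 2 * Y ^ 2 := by positivity
  have b11 : 0 ≤ τ * (w * Y ^ 2) := by positivity
  linarith

lemma alg3 {τ u w ψ H G Y Z : ℝ} (hτ : 0 ≤ τ) (hu : 1 ≤ u) (hw : w * u = 1)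
    (h1 : ψ * G ≤ 2 * H + 1 / 2 * w * Z ^ 2) (h2 : (Y - Z) ^ 2 ≤ 1 / 2 * (u * ψ * G)) :
    0 ≤ 4 * (τ * H) + 2 * (τ * (w * Y ^ 2)) - τ * ψ * G := by
  have hw0 : 0 < w := w_pos hu hw
  have h3 : w * (Y - Z) ^ 2 ≤ 1 / 2 * (ψ * G) := by
    calc w * (Y - Z) ^ 2 ≤ w * (1 / 2 * (u * ψ * G)) := by gcongr
      _ = 1 / 2 * ((w * u) * ψ * G) := by ring
      _ = _ := by rw [hw]; ring
  have h4 : 0 ≤ w * (2 * Y - Z) ^ 2 := by positivity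
  have h5 : 0 ≤ 4 * H + 2 * (w * Y ^ 2) - ψ * G := by nlinarith
  have := mul_nonneg hτ h5
  linarith

lemma alg6 {δ M x : ℝ} (hδ : 0 < δ) (h : 1 ≤ 4 * δ * M) : 0 ≤ δ * x ^ 2 - x + M := by
  have h1 : 0 ≤ (2 * δ * x - 1) ^ 2 := sq_nonneg _
  have h2 : 0 ≤ 4 * δ * (δ * x ^ 2 - x + M) := by nlinarith
  exact nonneg_of_mul_nonneg_right h2 (by linarith)

lemma alg7 {u w ψ : ℝ} (hu : 1 ≤ u) (hw : w * u = 1) (hψu : ψ = u - w) : u ≤ 2 + u * ψ ^ 2 := by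
  have h1 : u * (u * ψ ^ 2) = (u ^ 2 - 1) ^ 2 := by
    have : u * (u * ψ ^ 2) = (u * u - w * u) ^ 2 := by rw [hψu]; ring
    rw [this, hw]; ring
  have h2 : u * u ≤ u * (2 + u * ψ ^ 2) := by
    rw [mul_add, h1]
    have : 0 ≤ (u - 1) ^ 2 * ((u - 1) ^ 2 + 4 * (u - 1) + 3) := by
      have : 0 ≤ u - 1 := by linarith
      positivity
    nlinarith
  exact le_of_mul_le_mul_left h2 (by linarith)

end Vale.Agent.P088.HY.N2
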